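import Vale.Agent.Lib.P335.Avg

/-!
MODULE Good (P328).  Abstract part of the three-row inequality.
FROZEN STATEMENTS: `h3_of_good3Rel`, `good3Rel_of_fibres`, `good3_of_equiv`, `good3_of_const`.

ROUTES.
* `h3_of_good3Rel`.  Write `E a = avgK (p a)`, `E0 = avgK p0`, `g = f - E0 f`, `u a = E a g`.
  Since `p0` is coarser than `p a`, `E0 f` is `p a`-invariant, so `E a (E0 f) = E0 f`
  (`avgK_of_inv`, `avgK_congr`) and `f - E a f = g - u a` (`avgK_add`/`avgK_smul` or direct).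
  `u a` is `p a`-invariant (`avgK_congr`).  Sum of `u a` over a `p0`-class is `0`:
  with `1_C` the indicator of the class (which is `p a`-invariant):
  `∑_{x∈C} u a x = ∑ x, 1_C x * E a g x = ∑ x, E a 1_C x * g x = ∑_{x∈C} g x = 0`
  (`avgK_symm`, `avgK_of_inv`, `sum_class_eq`).
  Put `n = ∑ g^2`, `τ = ∑_a ∑ (u a)^2 = ∑ x, g x * (u 0 x + u 1 x + u 2 x)` (`avgK_symm`, `avgK_idem`),
  `w = ∑ x, (u 0 x + u 1 x + u 2 x)^2 = τ + 2 * cross`.  The hypothesis gives `2*cross ≤ τ`, i.e. `w ≤ 2 τ`.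
  Cauchy-Schwarz (`Finset.sum_mul_sq_le_sq_mul_sq` / `inner_mul_le_norm_mul_norm`): `τ^2 ≤ n * w`.
  Hence `τ^2 ≤ 2 n τ`, so `τ ≤ 2 n` (τ ≥ 0).  The target equals `3 n - 2 τ + cross = 3n - (5/2) τ + w/2`.
  If `n = 0` then `g = 0` and everything vanishes; otherwise `w ≥ τ^2/n` and
  `3n - (5/2)τ + τ^2/(2n) = (τ - 2n)(τ - 3n)/(2n) ≥ 0`.
* `good3Rel_of_fibres`.  `∑ x, F x = ∑ over the p0-classes` (`Finset.sum_fiberwise` or: prove
  `∑ x, F x ≥ 0`-type statements class by class via `Finset.sum_fiberwise_of_maps_to` with the image of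
  `p0`).  On the class of `x0` transport `u a` to `G` by `e.symm` (`Equiv.sum_comp`,
  `Finset.sum_subtype`/`Finset.sum_coe_sort`), apply `Good3 q`.
* `good3_of_equiv`: transport along `e` (`Equiv.sum_comp`).
* `good3_of_const`: if `p a0` is constant then `u a0` is constant with zero sum, hence `0`
  (or `F` is empty); the rest is `2xy ≤ x^2+y^2`.  (`fin_cases a0`.)
-/

namespace Vale.Agent.Lib.P328

open Finset
open Vale.Agent.Lib.P335 (avgK)

/-- variance form of the three-row inequality for three maps (`keys`) on a finite set with the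
uniform measure: `2 ∑_{a<b} Cov(u_a,u_b) ≤ ∑_a Var(u_a)` for `u_a` a function of the `a`-th key. -/
def Good3 {F K : Type} [Fintype F] (p : Fin 3 → F → K) : Prop :=
  ∀ u : Fin 3 → F → ℝ, (∀ a x y, p a x = p a y → u a x = u a y) → (∀ a, ∑ x, u a x = 0) →
    2 * ∑ x, (u 0 x * u 1 x + u 0 x * u 2 x + u 1 x * u 2 x)
      ≤ ∑ x, ((u 0 x) ^ 2 + (u 1 x) ^ 2 + (u 2 x) ^ 2)

/-- the same, relative to a coarser key `p0` (mean zero on every class of `p0`) -/
def Good3Rel {F K K0 : Type} [Fintype F] [DecidableEq K0] (p : Fin 3 → F → K) (p0 : F → K0) : Prop :=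
  ∀ u : Fin 3 → F → ℝ, (∀ a x y, p a x = p a y → u a x = u a y) →
    (∀ a x0, ∑ x ∈ univ.filter (fun x => p0 x = p0 x0), u a x = 0) →
    2 * ∑ x, (u 0 x * u 1 x + u 0 x * u 2 x + u 1 x * u 2 x)
      ≤ ∑ x, ((u 0 x) ^ 2 + (u 1 x) ^ 2 + (u 2 x) ^ 2)

theorem good3_aux (n τ c : ℝ) (hn : 0 ≤ n) (hτ : 0 ≤ τ) (h1 : 2 * c ≤ τ)
    (h2 : τ ^ 2 ≤ n * (τ + 2 * c)) (h3 : 0 ≤ τ + 2 * c) : 0 ≤ 3 * n - 2 * τ + c := by
  rcases hn.eq_or_lt with h0 | hn'
  · rw [← h0] at h2 ⊢
    have hτ0 : τ = 0 := by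
      have : τ ^ 2 ≤ 0 := by simpa using h2
      have h4 : τ ^ 2 = 0 := le_antisymm this (sq_nonneg τ)
      exact pow_eq_zero_iff (two_ne_zero) |>.1 h4
    rw [hτ0] at h3 ⊢
    linarith
  · have hτ2 : τ ≤ 2 * n := by
      by_contra hcon
      have hcon' : 2 * n < τ := lt_of_not_ge hcon
      have hτpos : 0 < τ := by linarith
      have : n * (τ + 2 * c) ≤ n * (2 * τ) := mul_le_mul_of_nonneg_left (by linarith) hn
      nlinarith
    have h5 : 0 ≤ (2 * n - τ) * (3 * n - τ) := mul_nonneg (by linarith) (by linarith)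
    have h6 : 0 ≤ 2 * n * (3 * n - 2 * τ + c) := by nlinarith
    by_contra hcon
    have hcon' : 3 * n - 2 * τ + c < 0 := lt_of_not_ge hcon
    have : 2 * n * (3 * n - 2 * τ + c) < 0 := mul_neg_of_pos_of_neg (by linarith) hcon'
    linarith

theorem h3_of_good3Rel {F K K0 : Type} [Fintype F] [DecidableEq K] [DecidableEq K0]
    (p : Fin 3 → F → K) (p0 : F → K0) (hc : ∀ a x y, p a x = p a y → p0 x = p0 y)
    (h : Good3Rel p p0) (f : F → ℝ) :
    0 ≤ ∑ x, ((f x - avgK (p 0) f x) * (f x - avgK (p 1) f x)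
      + (f x - avgK (p 0) f x) * (f x - avgK (p 2) f x)
      + (f x - avgK (p 1) f x) * (f x - avgK (p 2) f x)) := by
  set g : F → ℝ := fun x => f x - avgK p0 f x with hg
  set u : Fin 3 → F → ℝ := fun a => avgK (p a) g with hu
  -- E a (E0 f) = E0 f
  have hE0 : ∀ a, avgK (p a) (avgK p0 f) = avgK p0 f := fun a =>
    Vale.Agent.Lib.P335.avgK_of_inv (p a) (avgK p0 f)
      (fun x y hxy => Vale.Agent.Lib.P335.avgK_congr p0 f (hc a x y hxy))
  have hgdec : g = f + (-1 : ℝ) • avgK p0 f := by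
    funext x
    simp only [hg, Pi.add_apply, Pi.smul_apply, smul_eq_mul]
    ring
  have hux : ∀ a x, u a x = avgK (p a) f x - avgK p0 f x := by
    intro a x
    simp only [hu]
    rw [hgdec, Vale.Agent.Lib.P335.avgK_add, Vale.Agent.Lib.P335.avgK_smul, hE0 a]
    simp only [Pi.add_apply, Pi.smul_apply, smul_eq_mul]
    ring
  have hfu : ∀ a x, f x - avgK (p a) f x = g x - u a x := by
    intro a x
    rw [hux a x]
    simp only [hg]
    ring
  have hinv : ∀ a x y, p a x = p a y → u a x = u a y := fun a x y hxy =>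
    Vale.Agent.Lib.P335.avgK_congr (p a) g hxy
  -- zero sums on classes
  have hgC : ∀ x0, ∑ x ∈ univ.filter (fun x => p0 x = p0 x0), g x = 0 := by
    intro x0
    simp only [hg]
    rw [Finset.sum_sub_distrib, Vale.Agent.Lib.P335.sum_class_eq p0 f x0]
    have : ∑ x ∈ univ.filter (fun x => p0 x = p0 x0), avgK p0 f x
        = ∑ x ∈ univ.filter (fun x => p0 x = p0 x0), avgK p0 f x0 :=
      Finset.sum_congr rfl (fun x hx => Vale.Agent.Lib.P335.avgK_congr p0 f (by simpa using hx))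
    rw [this]
    simp
  have hzero : ∀ a x0, ∑ x ∈ univ.filter (fun x => p0 x = p0 x0), u a x = 0 := by
    intro a x0
    set ind : F → ℝ := fun x => if p0 x = p0 x0 then 1 else 0 with hind
    have hindinv : avgK (p a) ind = ind :=
      Vale.Agent.Lib.P335.avgK_of_inv (p a) ind (fun x y hxy => by
        simp only [hind]; rw [hc a x y hxy])
    have e1 : ∑ x ∈ univ.filter (fun x => p0 x = p0 x0), u a x = ∑ x, ind x * avgK (p a) g x := by
      rw [Finset.sum_filter]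
      refine Finset.sum_congr rfl (fun x _ => ?_)
      simp only [hind, hu]
      split_ifs <;> simp
    have e2 : ∑ x ∈ univ.filter (fun x => p0 x = p0 x0), g x = ∑ x, ind x * g x := by
      rw [Finset.sum_filter]
      refine Finset.sum_congr rfl (fun x _ => ?_)
      simp only [hind]
      split_ifs <;> simp
    rw [e1, Vale.Agent.Lib.P335.avgK_symm, hindinv, ← e2, hgC x0]
  have hgood := h u hinv hzero
  -- ⟨g, u a⟩ = ‖u a‖²
  have hgu : ∀ a, ∑ x, g x * u a x = ∑ x, (u a x) ^ 2 := by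
    intro a
    have h2 := Vale.Agent.Lib.P335.avgK_symm (p a) (avgK (p a) g) g
    rw [Vale.Agent.Lib.P335.avgK_idem] at h2
    have e1 : ∑ x, (u a x) ^ 2 = ∑ x, avgK (p a) g x * avgK (p a) g x :=
      Finset.sum_congr rfl (fun x _ => by simp only [hu]; ring)
    have e2 : ∑ x, g x * u a x = ∑ x, avgK (p a) g x * g x :=
      Finset.sum_congr rfl (fun x _ => by simp only [hu]; ring)
    rw [e1, e2, h2]
  set n : ℝ := ∑ x, (g x) ^ 2 with hn
  set τ : ℝ := ∑ x, ((u 0 x) ^ 2 + (u 1 x) ^ 2 + (u 2 x) ^ 2) with hτ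
  set c : ℝ := ∑ x, (u 0 x * u 1 x + u 0 x * u 2 x + u 1 x * u 2 x) with hcdef
  have hτsum : ∑ x, g x * (u 0 x + u 1 x + u 2 x) = τ := by
    rw [hτ, Finset.sum_add_distrib, Finset.sum_add_distrib, ← hgu 0, ← hgu 1, ← hgu 2,
      ← Finset.sum_add_distrib, ← Finset.sum_add_distrib]
    exact Finset.sum_congr rfl (fun x _ => by ring)
  have hw : ∑ x, (u 0 x + u 1 x + u 2 x) ^ 2 = τ + 2 * c := by
    rw [hτ, hcdef, Finset.mul_sum, ← Finset.sum_add_distrib]
    exact Finset.sum_congr rfl (fun x _ => by ring)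
  have hcs : τ ^ 2 ≤ n * (τ + 2 * c) := by
    rw [← hw, ← hτsum]
    exact Finset.sum_mul_sq_le_sq_mul_sq univ g (fun x => u 0 x + u 1 x + u 2 x)
  have hn0 : 0 ≤ n := Finset.sum_nonneg (fun x _ => sq_nonneg _)
  have hτ0 : 0 ≤ τ := Finset.sum_nonneg (fun x _ => by positivity)
  have hw0 : 0 ≤ τ + 2 * c := by rw [← hw]; exact Finset.sum_nonneg (fun x _ => sq_nonneg _)
  have hfin := good3_aux n τ c hn0 hτ0 hgood hcs hw0
  have htarget : ∑ x, ((f x - avgK (p 0) f x) * (f x - avgK (p 1) f x)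
      + (f x - avgK (p 0) f x) * (f x - avgK (p 2) f x)
      + (f x - avgK (p 1) f x) * (f x - avgK (p 2) f x)) = 3 * n - 2 * τ + c := by
    rw [← hτsum, hn, hcdef, Finset.mul_sum, Finset.mul_sum, ← Finset.sum_sub_distrib,
      ← Finset.sum_add_distrib]
    refine Finset.sum_congr rfl (fun x _ => ?_)
    rw [hfu 0 x, hfu 1 x, hfu 2 x]
    ring
  rw [htarget]
  exact hfin

theorem good3Rel_of_fibres {F K K0 : Type} [Fintype F] [DecidableEq K0]
    (p : Fin 3 → F → K) (p0 : F → K0)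
    (h : ∀ x0 : F, ∃ (G : Type) (_ : Fintype G) (K' : Type) (q : Fin 3 → G → K')
      (e : {x : F // p0 x = p0 x0} ≃ G),
      (∀ a x y, q a (e x) = q a (e y) → p a x.1 = p a y.1) ∧ Good3 q) :
    Good3Rel p p0 := by
  intro u hu hs
  -- class by class
  have hclass : ∀ x0 : F, 2 * ∑ x ∈ univ.filter (fun x => p0 x = p0 x0),
        (u 0 x * u 1 x + u 0 x * u 2 x + u 1 x * u 2 x)
      ≤ ∑ x ∈ univ.filter (fun x => p0 x = p0 x0), ((u 0 x) ^ 2 + (u 1 x) ^ 2 + (u 2 x) ^ 2) := by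
    intro x0
    obtain ⟨G, hG, K', q, e, hq, hgood⟩ := h x0
    have tr : ∀ φ : F → ℝ, ∑ g : G, φ (e.symm g).1
        = ∑ x ∈ univ.filter (fun x => p0 x = p0 x0), φ x := by
      intro φ
      rw [Equiv.sum_comp e.symm (fun x : {x : F // p0 x = p0 x0} => φ x.1)]
      exact (Finset.sum_subtype (univ.filter (fun x => p0 x = p0 x0)) (by simp) φ).symm
    have h1 := hgood (fun a g => u a (e.symm g).1)
      (fun a x y hxy => hu a _ _ (hq a (e.symm x) (e.symm y) (by simpa using hxy)))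
      (fun a => by rw [tr (u a)]; exact hs a x0)
    rw [← tr (fun x => u 0 x * u 1 x + u 0 x * u 2 x + u 1 x * u 2 x),
      ← tr (fun x => (u 0 x) ^ 2 + (u 1 x) ^ 2 + (u 2 x) ^ 2)]
    exact h1
  have dec : ∀ φ : F → ℝ, ∑ k ∈ univ.image p0, ∑ x ∈ univ.filter (fun x => p0 x = k), φ x
      = ∑ x, φ x := fun φ =>
    Finset.sum_fiberwise_of_maps_to (fun x _ => Finset.mem_image_of_mem p0 (Finset.mem_univ x)) φ
  rw [← dec (fun x => u 0 x * u 1 x + u 0 x * u 2 x + u 1 x * u 2 x),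
    ← dec (fun x => (u 0 x) ^ 2 + (u 1 x) ^ 2 + (u 2 x) ^ 2), Finset.mul_sum]
  refine Finset.sum_le_sum (fun k hk => ?_)
  obtain ⟨x0, _, rfl⟩ := Finset.mem_image.1 hk
  exact hclass x0

theorem good3_of_equiv {F G K K' : Type} [Fintype F] [Fintype G] (e : F ≃ G)
    (p : Fin 3 → F → K) (q : Fin 3 → G → K')
    (h : ∀ a x y, q a (e x) = q a (e y) → p a x = p a y) (hq : Good3 q) : Good3 p := by
  intro u hu hs
  have tr : ∀ φ : F → ℝ, ∑ g : G, φ (e.symm g) = ∑ x, φ x := fun φ => Equiv.sum_comp e.symm φ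
  have h1 := hq (fun a g => u a (e.symm g))
    (fun a x y hxy => hu a _ _ (h a (e.symm x) (e.symm y) (by simpa using hxy)))
    (fun a => by rw [tr (u a)]; exact hs a)
  rw [← tr (fun x => u 0 x * u 1 x + u 0 x * u 2 x + u 1 x * u 2 x),
    ← tr (fun x => (u 0 x) ^ 2 + (u 1 x) ^ 2 + (u 2 x) ^ 2)]
  exact h1

theorem good3_of_const {F K : Type} [Fintype F] (p : Fin 3 → F → K) (a0 : Fin 3)
    (h : ∀ x y, p a0 x = p a0 y) : Good3 p := by
  intro u hu hs
  have h0 : ∀ x, u a0 x = 0 := by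
    intro x
    have h1 : ∑ y, u a0 y = ∑ _y : F, u a0 x :=
      Finset.sum_congr rfl (fun y _ => hu a0 y x (h y x))
    rw [hs a0] at h1
    simp only [Finset.sum_const, Finset.card_univ, nsmul_eq_mul] at h1
    have hne : (Fintype.card F : ℝ) ≠ 0 := by
      have : Nonempty F := ⟨x⟩
      exact_mod_cast Fintype.card_ne_zero
    rcases mul_eq_zero.1 h1.symm with h2 | h2
    · exact absurd h2 hne
    · exact h2
  rw [Finset.mul_sum]
  refine Finset.sum_le_sum (fun x _ => ?_)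
  have hx := h0 x
  fin_cases a0
  · have hx' : u 0 x = 0 := hx
    rw [hx']
    nlinarith [sq_nonneg (u 1 x - u 2 x)]
  · have hx' : u 1 x = 0 := hx
    rw [hx']
    nlinarith [sq_nonneg (u 0 x - u 2 x)]
  · have hx' : u 2 x = 0 := hx
    rw [hx']
    nlinarith [sq_nonneg (u 0 x - u 1 x)]

end Vale.Agent.Lib.P328
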