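import Vale.Agent.Lib.P328.GoodL

/-!
MODULE Sym (P328).  FROZEN STATEMENT: `goodL_of_checkS`.
Three EQUAL row sums `r = (rho,rho,rho)`: the `3 s^2`-dimensional check of `GoodL` is replaced by an
`s^2`-dimensional one (kernel time and memory drop by a factor of about 27).

NOTATION.  `r = (rho,rho,rho)`, `Z = ZZ s c r`, `o b = om s c r 0 b`, `m b b' = MM c (ix r 0 b) (ix r 0 b')`,
`N u w = ∑_b o b * u b * w b`, `B u w = ∑_b ∑_b' m b b' * u b * w b'` (list sums over `pairs s`).

ROUTE.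
(a) `MM`, `fits` do not look at the first component of an index and `rs (rho,rho,rho) a = rho`, so
    `MM c (ix r a b) (ix r a' b') = m b b'` and `om s c r a b = o b` for all `a a'`
    (`simp [MM, fits, ix, rs]`, `unfold om`).  Hence `SS s c r v a a' = B (v a) (v a')`,
    `S1 s c r a g = ∑_b o b * g b`.
(b) `psd_sound` + `tri_triG` + `qf_triG` (symmetry of `entS` from `MM_comm`) applied to
    `w t = u (t.1.2.2.1, t.1.2.2.2)` give, for EVERY `u : ℕ × ℕ → ℝ`,
    `0 ≤ Z * N u u - 2 * Z * B u u + 2 * (∑_b o b * u b)^2`  (`list_sum_prod`, `list_sum2_lin`).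
(c) `- N d d ≤ B d d` for every `d`: `0 ≤ m b b'` and `-(x^2+y^2)/2 ≤ x*y`, so
    `B d d ≥ -(1/2) ∑∑ m b b' (d b)^2 - (1/2) ∑∑ m b b' (d b')^2`; the first double sum is `N d d` by the definition
    of `om` (`nx 0 = 1`, use (a); cast of a list sum: induction), the second one as well after
    `list_sum_comm` and `MM_comm`.
(d) `0 ≤ Z` (`MM ≥ 0`, sums of nonnegative rationals).
(e) Algebra: with `σ = v 0 + v 1 + v 2`, `d_ab = v a - v b`, bilinearity of `N`, `B` and symmetry of `B` give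
    `3 * (∑_a N (v a) (v a) - 2 ∑_{a<b} B (v a) (v b))
       = (N σ σ - 2 B σ σ) + ∑_{a<b} (N d_ab d_ab + B d_ab d_ab)`,
    and `∑_b o b * σ b = 0` by `h0 h1 h2`.  Multiply by `Z ≥ 0` and use (b) for `σ`, (c) for the `d_ab`.
    (To avoid bilinearity lemmas one can expand everything into list sums with
    `List.sum_map_add`, `List.sum_map_mul_left` and close pointwise with `ring`.)
-/

namespace Vale.Agent.Lib.P328

/-- variables of the reduced check: the codes of ONE row, with cached weights -/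
def idx1 (s : ℕ) (c : List ℕ) (rho : ℕ) : List (Ix × ℚ) :=
  (pairs s).map (fun b => (ix (rho, rho, rho) 0 b, om s c (rho, rho, rho) 0 b))

def entS (c : List ℕ) (Z : ℚ) (t u : Ix × ℚ) : ℚ := - (2 * Z * MM c t.1 u.1) + 2 * (t.2 * u.2)

/-- reduced check for three equal row sums: `Z diag(om) - 2 Z MM + 2 om om^T` is positive semidefinite -/
def checkS (s : ℕ) (c : List ℕ) (rho : ℕ) : Bool :=
  psd (s * s) (triG (fun t => ZZ s c (rho, rho, rho) * t.2) (entS c (ZZ s c (rho, rho, rho)))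
    (idx1 s c rho))

/-! ### abstract list-sum algebra -/

/-- `∑_b o b * u b * w b` -/
noncomputable def NNs {β : Type} (L : List β) (o : β → ℝ) (u w : β → ℝ) : ℝ :=
  (L.map (fun b => o b * u b * w b)).sum

/-- `∑_b ∑_b' m b b' * u b * w b'` -/
noncomputable def BBs {β : Type} (L : List β) (m : β → β → ℝ) (u w : β → ℝ) : ℝ :=
  (L.map (fun b => (L.map (fun b' => m b b' * u b * w b')).sum)).sum

theorem list_sum1_lin {α : Type} (l : List α) (k : ℝ) (F G : α → ℝ) :
    (l.map (fun a => k * F a + G a)).sum = k * (l.map F).sum + (l.map G).sum := by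
  simp [List.sum_map_add, List.sum_map_mul_left]

theorem list_sum1_congr {α : Type} (l : List α) (F G : α → ℝ) (h : ∀ a, F a = G a) :
    (l.map F).sum = (l.map G).sum := by
  have : F = G := funext h
  rw [this]

theorem NNs_lin_left {β : Type} (L : List β) (o : β → ℝ) (k : ℝ) (u u' w : β → ℝ) :
    NNs L o (fun b => k * u b + u' b) w = k * NNs L o u w + NNs L o u' w := by
  unfold NNs
  rw [← list_sum1_lin]
  apply list_sum1_congr
  intro b
  ring

theorem NNs_lin_right {β : Type} (L : List β) (o : β → ℝ) (k : ℝ) (u w w' : β → ℝ) :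
    NNs L o u (fun b => k * w b + w' b) = k * NNs L o u w + NNs L o u w' := by
  unfold NNs
  rw [← list_sum1_lin]
  apply list_sum1_congr
  intro b
  ring

theorem NNs_comm {β : Type} (L : List β) (o : β → ℝ) (u w : β → ℝ) :
    NNs L o u w = NNs L o w u := by
  unfold NNs
  apply list_sum1_congr
  intro b
  ring

theorem BBs_lin_left {β : Type} (L : List β) (m : β → β → ℝ) (k : ℝ) (u u' w : β → ℝ) :
    BBs L m (fun b => k * u b + u' b) w = k * BBs L m u w + BBs L m u' w := by
  unfold BBs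
  rw [← list_sum2_lin]
  apply list_sum2_congr
  intro b b'
  ring

theorem BBs_lin_right {β : Type} (L : List β) (m : β → β → ℝ) (k : ℝ) (u w w' : β → ℝ) :
    BBs L m u (fun b => k * w b + w' b) = k * BBs L m u w + BBs L m u w' := by
  unfold BBs
  rw [← list_sum2_lin]
  apply list_sum2_congr
  intro b b'
  ring

theorem BBs_comm {β : Type} (L : List β) (m : β → β → ℝ) (hm : ∀ b b', m b b' = m b' b)
    (u w : β → ℝ) : BBs L m u w = BBs L m w u := by
  unfold BBs
  rw [list_sum_comm]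
  apply list_sum2_congr
  intro b b'
  rw [hm b' b]
  ring

theorem list_sum2_nonneg {α β : Type} (l : List α) (l' : List β) (F : α → β → ℝ)
    (h : ∀ a b, 0 ≤ F a b) : 0 ≤ (l.map (fun a => (l'.map (fun b => F a b)).sum)).sum := by
  apply List.sum_nonneg
  intro x hx
  obtain ⟨a, _, rfl⟩ := List.mem_map.1 hx
  apply List.sum_nonneg
  intro y hy
  obtain ⟨b, _, rfl⟩ := List.mem_map.1 hy
  exact h a b

/-- step (c) of the route -/
theorem NNs_add_BBs_nonneg {β : Type} (L : List β) (o : β → ℝ) (m : β → β → ℝ)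
    (hm : ∀ b b', m b b' = m b' b) (hm0 : ∀ b b', 0 ≤ m b b')
    (ho : ∀ b, o b = (L.map (fun b' => m b b')).sum) (d : β → ℝ) :
    0 ≤ NNs L o d d + BBs L m d d := by
  have e1 : NNs L o d d = (L.map (fun b => (L.map (fun b' => m b b' * (d b * d b))).sum)).sum := by
    unfold NNs
    apply list_sum1_congr
    intro b
    rw [ho b, List.sum_map_mul_right]
    ring
  have e2 : NNs L o d d = (L.map (fun b => (L.map (fun b' => m b b' * (d b' * d b'))).sum)).sum := by
    rw [e1, list_sum_comm]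
    apply list_sum2_congr
    intro b b'
    rw [hm b' b]
  have e3 : 2 * (NNs L o d d + BBs L m d d)
      = (L.map (fun b => (L.map (fun b' => m b b' * (d b + d b') ^ 2)).sum)).sum := by
    have h1 := list_sum2_lin L L 1 (fun b b' => m b b' * (d b * d b))
      (fun b b' => m b b' * (d b' * d b'))
    have h2 := list_sum2_lin L L 2 (fun b b' => m b b' * d b * d b')
      (fun b b' => 1 * (m b b' * (d b * d b)) + m b b' * (d b' * d b'))
    have h3 : (L.map (fun b => (L.map (fun b' => m b b' * (d b + d b') ^ 2)).sum)).sum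
        = (L.map (fun b => (L.map (fun b' => 2 * (m b b' * d b * d b')
          + (1 * (m b b' * (d b * d b)) + m b b' * (d b' * d b')))).sum)).sum := by
      apply list_sum2_congr
      intro b b'
      ring
    rw [h3, h2, h1, ← e1, ← e2]
    unfold BBs
    ring
  have e4 : 0 ≤ (L.map (fun b => (L.map (fun b' => m b b' * (d b + d b') ^ 2)).sum)).sum :=
    list_sum2_nonneg _ _ _ (fun b b' => mul_nonneg (hm0 b b') (sq_nonneg _))
  linarith

/-- step (e) of the route -/
theorem sym_abstract {β : Type} (L : List β) (o : β → ℝ) (m : β → β → ℝ) (Z : ℝ) (hZ : 0 ≤ Z)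
    (hm : ∀ b b', m b b' = m b' b) (hm0 : ∀ b b', 0 ≤ m b b')
    (ho : ∀ b, o b = (L.map (fun b' => m b b')).sum)
    (hb : ∀ u : β → ℝ, 0 ≤ Z * NNs L o u u - 2 * Z * BBs L m u u
      + 2 * ((L.map (fun b => o b * u b)).sum) ^ 2)
    (v0 v1 v2 : β → ℝ) (h0 : (L.map (fun b => o b * v0 b)).sum = 0)
    (h1 : (L.map (fun b => o b * v1 b)).sum = 0) (h2 : (L.map (fun b => o b * v2 b)).sum = 0) :
    0 ≤ Z * ((NNs L o v0 v0 + NNs L o v1 v1 + NNs L o v2 v2)
      - 2 * (BBs L m v0 v1 + BBs L m v0 v2 + BBs L m v1 v2)) := by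
  have hs := hb (fun b => 1 * v0 b + (1 * v1 b + v2 b))
  have hsum : (L.map (fun b => o b * (1 * v0 b + (1 * v1 b + v2 b)))).sum = 0 := by
    have e : (L.map (fun b => o b * (1 * v0 b + (1 * v1 b + v2 b)))).sum
        = (L.map (fun b => 1 * (o b * v0 b) + (1 * (o b * v1 b) + o b * v2 b))).sum := by
      apply list_sum1_congr
      intro b
      ring
    rw [e, list_sum1_lin, list_sum1_lin, h0, h1, h2]
    ring
  rw [hsum] at hs
  have d01 := mul_nonneg hZ (NNs_add_BBs_nonneg L o m hm hm0 ho (fun b => (-1) * v1 b + v0 b))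
  have d02 := mul_nonneg hZ (NNs_add_BBs_nonneg L o m hm hm0 ho (fun b => (-1) * v2 b + v0 b))
  have d12 := mul_nonneg hZ (NNs_add_BBs_nonneg L o m hm hm0 ho (fun b => (-1) * v2 b + v1 b))
  simp only [NNs_lin_left, NNs_lin_right, BBs_lin_left, BBs_lin_right] at hs d01 d02 d12
  rw [BBs_comm L m hm v1 v0, BBs_comm L m hm v2 v0, BBs_comm L m hm v2 v1,
    NNs_comm L o v1 v0, NNs_comm L o v2 v0, NNs_comm L o v2 v1] at hs
  rw [BBs_comm L m hm v1 v0, NNs_comm L o v1 v0] at d01
  rw [BBs_comm L m hm v2 v0, NNs_comm L o v2 v0] at d02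
  rw [BBs_comm L m hm v2 v1, NNs_comm L o v2 v1] at d12
  nlinarith [hs, d01, d02, d12]

/-! ### the concrete data -/

theorem MM_eqrow (c : List ℕ) (rho a a' : ℕ) (b b' : ℕ × ℕ) :
    MM c (ix (rho, rho, rho) a b) (ix (rho, rho, rho) a' b')
      = MM c (ix (rho, rho, rho) 0 b) (ix (rho, rho, rho) 0 b') := by
  have hr : ∀ a, rs (rho, rho, rho) a = rho := by
    intro a
    unfold rs
    split_ifs <;> rfl
  unfold ix
  rw [hr a, hr a', hr 0]
  rfl

theorem om_eqrow (s : ℕ) (c : List ℕ) (rho a : ℕ) (b : ℕ × ℕ) :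
    om s c (rho, rho, rho) a b = om s c (rho, rho, rho) 0 b := by
  unfold om
  simp only [MM_eqrow c rho a (nx a), MM_eqrow c rho 0 (nx 0)]

theorem MM_nonneg (c : List ℕ) (t u : Ix) : 0 ≤ MM c t u := by
  unfold MM wt
  split_ifs <;> norm_num

theorem om_nonneg (s : ℕ) (c : List ℕ) (r : ℕ × ℕ × ℕ) (a : ℕ) (b : ℕ × ℕ) : 0 ≤ om s c r a b := by
  unfold om
  apply List.sum_nonneg
  intro x hx
  obtain ⟨b', _, rfl⟩ := List.mem_map.1 hx
  exact MM_nonneg _ _ _

theorem ZZ_nonneg (s : ℕ) (c : List ℕ) (r : ℕ × ℕ × ℕ) : 0 ≤ ZZ s c r := by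
  unfold ZZ
  apply List.sum_nonneg
  intro x hx
  obtain ⟨b', _, rfl⟩ := List.mem_map.1 hx
  exact om_nonneg _ _ _ _ _

theorem entS_comm (c : List ℕ) (Z : ℚ) (t u : Ix × ℚ) : entS c Z t u = entS c Z u t := by
  unfold entS
  rw [MM_comm, mul_comm t.2]

theorem om_cast (s : ℕ) (c : List ℕ) (rho : ℕ) (b : ℕ × ℕ) :
    (om s c (rho, rho, rho) 0 b : ℝ) = ((pairs s).map (fun b' =>
      (MM c (ix (rho, rho, rho) 0 b) (ix (rho, rho, rho) 0 b') : ℝ))).sum := by
  unfold om
  simp only [MM_eqrow c rho 0 (nx 0)]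
  rw [Rat.cast_list_sum, List.map_map]
  rfl

/-- step (b) of the route -/
theorem checkS_sound (s : ℕ) (c : List ℕ) (rho : ℕ) (h : checkS s c rho = true)
    (u : ℕ × ℕ → ℝ) :
    0 ≤ (ZZ s c (rho, rho, rho) : ℝ)
        * NNs (pairs s) (fun b => (om s c (rho, rho, rho) 0 b : ℝ)) u u
      - 2 * (ZZ s c (rho, rho, rho) : ℝ) * BBs (pairs s) (fun b b' =>
          (MM c (ix (rho, rho, rho) 0 b) (ix (rho, rho, rho) 0 b') : ℝ)) u u
      + 2 * (((pairs s).map (fun b => (om s c (rho, rho, rho) 0 b : ℝ) * u b)).sum) ^ 2 := by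
  set w : Ix × ℚ → ℝ := fun t => u (t.1.2.2.1, t.1.2.2.2) with hw
  have key := psd_sound (idx1 s c rho).length _ _ (tri_triG _ _ _) h ((idx1 s c rho).map w)
    (by simp)
  rw [qf_triG _ _ (entS_comm c (ZZ s c (rho, rho, rho)))] at key
  unfold idx1 at key
  simp only [List.map_map, Function.comp_def] at key
  have hD : ((pairs s).map (fun b => ((ZZ s c (rho, rho, rho)
      * (ix (rho, rho, rho) 0 b, om s c (rho, rho, rho) 0 b).2 : ℚ) : ℝ)
      * w (ix (rho, rho, rho) 0 b, om s c (rho, rho, rho) 0 b) ^ 2)).sum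
      = (ZZ s c (rho, rho, rho) : ℝ)
        * NNs (pairs s) (fun b => (om s c (rho, rho, rho) 0 b : ℝ)) u u := by
    unfold NNs
    rw [← List.sum_map_mul_left]
    apply list_sum1_congr
    intro b
    simp [hw, ix]
    ring
  have hB : ((pairs s).map (fun b => ((pairs s).map (fun b' =>
      (entS c (ZZ s c (rho, rho, rho)) (ix (rho, rho, rho) 0 b, om s c (rho, rho, rho) 0 b)
        (ix (rho, rho, rho) 0 b', om s c (rho, rho, rho) 0 b') : ℝ)
        * w (ix (rho, rho, rho) 0 b, om s c (rho, rho, rho) 0 b)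
        * w (ix (rho, rho, rho) 0 b', om s c (rho, rho, rho) 0 b'))).sum)).sum
      = (-(2 * (ZZ s c (rho, rho, rho) : ℝ))) * BBs (pairs s) (fun b b' =>
          (MM c (ix (rho, rho, rho) 0 b) (ix (rho, rho, rho) 0 b') : ℝ)) u u
        + 2 * (((pairs s).map (fun b => (om s c (rho, rho, rho) 0 b : ℝ) * u b)).sum) ^ 2 := by
    unfold BBs
    have e1 := list_sum2_lin (pairs s) (pairs s) 2
      (fun b b' => (om s c (rho, rho, rho) 0 b : ℝ) * u b
        * ((om s c (rho, rho, rho) 0 b' : ℝ) * u b')) (fun _ _ => 0)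
    simp only [List.map_const', List.sum_replicate, smul_zero, add_zero] at e1
    rw [sq, ← list_sum_prod, ← e1, ← list_sum2_lin]
    apply list_sum2_congr
    intro b b'
    simp [hw, ix, entS]
    ring
  rw [hD, hB] at key
  linarith

theorem goodL_of_checkS (s : ℕ) (c : List ℕ) (rho : ℕ) (h : checkS s c rho = true)
    (v : ℕ → ℕ × ℕ → ℝ)
    (h0 : S1 s c (rho, rho, rho) 0 (v 0) = 0) (h1 : S1 s c (rho, rho, rho) 1 (v 1) = 0)
    (h2 : S1 s c (rho, rho, rho) 2 (v 2) = 0) :
    0 ≤ (ZZ s c (rho, rho, rho) : ℝ) * ((S1 s c (rho, rho, rho) 0 (fun b => v 0 b ^ 2)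
        + S1 s c (rho, rho, rho) 1 (fun b => v 1 b ^ 2)
        + S1 s c (rho, rho, rho) 2 (fun b => v 2 b ^ 2))
      - 2 * (SS s c (rho, rho, rho) v 0 1 + SS s c (rho, rho, rho) v 0 2
        + SS s c (rho, rho, rho) v 1 2)) := by
  have hS1 : ∀ a (g : ℕ × ℕ → ℝ), S1 s c (rho, rho, rho) a g
      = ((pairs s).map (fun b => (om s c (rho, rho, rho) 0 b : ℝ) * g b)).sum := by
    intro a g
    unfold S1
    simp only [om_eqrow s c rho a]
  have hN : ∀ a, S1 s c (rho, rho, rho) a (fun b => v a b ^ 2)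
      = NNs (pairs s) (fun b => (om s c (rho, rho, rho) 0 b : ℝ)) (v a) (v a) := by
    intro a
    rw [hS1]
    unfold NNs
    apply list_sum1_congr
    intro b
    ring
  have hSS : ∀ a a', SS s c (rho, rho, rho) v a a' = BBs (pairs s) (fun b b' =>
      (MM c (ix (rho, rho, rho) 0 b) (ix (rho, rho, rho) 0 b') : ℝ)) (v a) (v a') := by
    intro a a'
    unfold SS BBs
    simp only [MM_eqrow c rho a a']
  rw [hS1] at h0 h1 h2
  rw [hN, hN, hN, hSS, hSS, hSS]
  exact sym_abstract (pairs s) _ _ _ (by exact_mod_cast ZZ_nonneg s c (rho, rho, rho))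
    (fun b b' => by rw [MM_comm]) (fun b b' => by exact_mod_cast MM_nonneg _ _ _)
    (om_cast s c rho) (checkS_sound s c rho h) (v 0) (v 1) (v 2) h0 h1 h2

end Vale.Agent.Lib.P328
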