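import Vale.Agent.Lib.P328.TabSum
import Vale.Agent.Lib.P328.Sym
import Vale.Agent.Lib.P328.Good

/-! From the Boolean check to the variance inequality `Good3` for three-row tables over `Fin s`
with row sums in `{1,2}` (P328). -/

namespace Vale.Agent.Lib.P328

open Finset

theorem nx_val (a : Fin 3) : nx (a : ℕ) = ((a + 1 : Fin 3) : ℕ) := by
  fin_cases a <;> rfl

theorem cast_list_sum_map {T : Type} (L : List T) (F : T → ℚ) :
    (((L.map F).sum : ℚ) : ℝ) = (L.map (fun t => (F t : ℝ))).sum := by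
  induction L with
  | nil => simp
  | cons t L ih => simp [ih]

theorem S1_eq (s : ℕ) (r : Fin 3 → ℕ) (c : Fin s → ℕ) (hr : ∀ a, r a = 1 ∨ r a = 2)
    (hsum : ∑ a, r a = ∑ j, c j) (a : Fin 3) (g : (Fin s → ℕ) → ℝ) :
    S1 s (List.ofFn c) (r 0, r 1, r 2) a (fun b => g (rowN s (r a) b.1 b.2))
      = ∑ Z : Tab r c, g (Z.1 a) := by
  have hne : a ≠ a + 1 := by fin_cases a <;> decide
  rw [tab_pair_sum s r c hr hsum a (a + 1) hne (fun x _ => g x)]
  unfold S1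
  congr 1
  apply List.map_congr_left
  intro b _
  unfold om
  rw [cast_list_sum_map, nx_val, List.sum_map_mul_right]

theorem ZZ_eq (s : ℕ) (r : Fin 3 → ℕ) (c : Fin s → ℕ) (hr : ∀ a, r a = 1 ∨ r a = 2)
    (hsum : ∑ a, r a = ∑ j, c j) :
    (ZZ s (List.ofFn c) (r 0, r 1, r 2) : ℝ) = (Fintype.card (Tab r c) : ℝ) := by
  have h := S1_eq s r c hr hsum 0 (fun _ => 1)
  unfold S1 at h
  unfold ZZ
  rw [cast_list_sum_map]
  simp only [mul_one, Finset.sum_const, Finset.card_univ, nsmul_eq_mul] at h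
  exact h

theorem good3_of_goodL (s : ℕ) (r : Fin 3 → ℕ) (c : Fin s → ℕ) (hr : ∀ a, r a = 1 ∨ r a = 2)
    (hsum : ∑ a, r a = ∑ j, c j)
    (hkey : ∀ v : ℕ → ℕ × ℕ → ℝ, S1 s (List.ofFn c) (r 0, r 1, r 2) 0 (v 0) = 0 →
      S1 s (List.ofFn c) (r 0, r 1, r 2) 1 (v 1) = 0 →
      S1 s (List.ofFn c) (r 0, r 1, r 2) 2 (v 2) = 0 →
      0 ≤ (ZZ s (List.ofFn c) (r 0, r 1, r 2) : ℝ)
        * ((S1 s (List.ofFn c) (r 0, r 1, r 2) 0 (fun b => v 0 b ^ 2)
          + S1 s (List.ofFn c) (r 0, r 1, r 2) 1 (fun b => v 1 b ^ 2)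
          + S1 s (List.ofFn c) (r 0, r 1, r 2) 2 (fun b => v 2 b ^ 2))
        - 2 * (SS s (List.ofFn c) (r 0, r 1, r 2) v 0 1 + SS s (List.ofFn c) (r 0, r 1, r 2) v 0 2
          + SS s (List.ofFn c) (r 0, r 1, r 2) v 1 2))) :
    Good3 (fun (a : Fin 3) (Z : Tab r c) => Z.1 a) := by
  classical
  intro u hu h0
  let hh : Fin 3 → (Fin s → ℕ) → ℝ :=
    fun a x => if hx : ∃ Z : Tab r c, Z.1 a = x then u a hx.choose else 0
  have hfac : ∀ a Z, u a Z = hh a (Z.1 a) := by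
    intro a Z
    have hx : ∃ Z' : Tab r c, Z'.1 a = Z.1 a := ⟨Z, rfl⟩
    simp only [hh, dif_pos hx]
    exact hu a _ _ hx.choose_spec.symm
  let v : ℕ → ℕ × ℕ → ℝ := fun n b =>
    if n = 0 then hh 0 (rowN s (r 0) b.1 b.2)
    else if n = 1 then hh 1 (rowN s (r 1) b.1 b.2) else hh 2 (rowN s (r 2) b.1 b.2)
  have hv : ∀ a : Fin 3, v (a : ℕ) = fun b => hh a (rowN s (r a) b.1 b.2) := by
    intro a
    fin_cases a <;> rfl
  have hz : ∀ a : Fin 3, S1 s (List.ofFn c) (r 0, r 1, r 2) a (v a) = 0 := by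
    intro a
    rw [hv a, S1_eq s r c hr hsum a (hh a), ← h0 a]
    exact Finset.sum_congr rfl (fun Z _ => (hfac a Z).symm)
  have hsq : ∀ a : Fin 3, S1 s (List.ofFn c) (r 0, r 1, r 2) a (fun b => v a b ^ 2)
      = ∑ Z : Tab r c, u a Z ^ 2 := by
    intro a
    rw [hv a, S1_eq s r c hr hsum a (fun x => hh a x ^ 2)]
    exact Finset.sum_congr rfl (fun Z _ => by rw [hfac a Z])
  have hSS : ∀ a a' : Fin 3, a ≠ a' → SS s (List.ofFn c) (r 0, r 1, r 2) v a a'
      = ∑ Z : Tab r c, u a Z * u a' Z := by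
    intro a a' haa
    unfold SS
    rw [hv a, hv a']
    have := tab_pair_sum s r c hr hsum a a' haa (fun x y => hh a x * hh a' y)
    simp only [mul_assoc]
    rw [← this]
    exact Finset.sum_congr rfl (fun Z _ => by rw [hfac a Z, hfac a' Z])
  have key := hkey v (hz 0) (hz 1) (hz 2)
  have e0 := hsq 0
  have e1 := hsq 1
  have e2 := hsq 2
  have f01 := hSS 0 1 (by decide)
  have f02 := hSS 0 2 (by decide)
  have f12 := hSS 1 2 (by decide)
  simp only [Fin.val_zero, Fin.val_one, Fin.val_two] at e0 e1 e2 f01 f02 f12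
  rw [e0, e1, e2, f01, f02, f12, ZZ_eq s r c hr hsum] at key
  by_cases hcard : Fintype.card (Tab r c) = 0
  · have : IsEmpty (Tab r c) := Fintype.card_eq_zero_iff.mp hcard
    simp
  · have hpos : (0 : ℝ) < (Fintype.card (Tab r c) : ℝ) := by
      exact_mod_cast Nat.pos_of_ne_zero hcard
    have := nonneg_of_mul_nonneg_right key hpos
    simp only [Finset.sum_add_distrib]
    linarith

theorem good3_of_check (s : ℕ) (r : Fin 3 → ℕ) (c : Fin s → ℕ) (hr : ∀ a, r a = 1 ∨ r a = 2)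
    (hsum : ∑ a, r a = ∑ j, c j)
    (h : check s (List.ofFn c) (r 0, r 1, r 2) = true) :
    Good3 (fun (a : Fin 3) (Z : Tab r c) => Z.1 a) :=
  good3_of_goodL s r c hr hsum (goodL_of_check s (List.ofFn c) (r 0, r 1, r 2) h)

theorem good3_of_checkS (s : ℕ) (r : Fin 3 → ℕ) (c : Fin s → ℕ) (rho : ℕ)
    (hrho : rho = 1 ∨ rho = 2) (hr : ∀ a, r a = rho) (hsum : ∑ a, r a = ∑ j, c j)
    (h : checkS s (List.ofFn c) rho = true) :
    Good3 (fun (a : Fin 3) (Z : Tab r c) => Z.1 a) := by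
  apply good3_of_goodL s r c (fun a => by rw [hr a]; exact hrho) hsum
  rw [hr 0, hr 1, hr 2]
  exact goodL_of_checkS s (List.ofFn c) rho h

end Vale.Agent.Lib.P328
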