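import Vale.Agent.Lib.P328.Defs

/-!
MODULE Card (P328).  FROZEN STATEMENT: `card_tab_le`.

ROUTE.  Injection `Tab r c → (ι → κ → Fin (B+1))`, `X ↦ fun i j => ⟨X i j, _⟩`
(`tab_entry_le_row`), `Fintype.card_le_of_injective`, `Fintype.card_fun`/`Fintype.card_pi`,
`Fintype.card_fin`, `pow_mul`.
-/

namespace Vale.Agent.Lib.P328

open Finset

variable {ι κ : Type} [Fintype ι] [Fintype κ]

theorem card_tab_le (r : ι → ℕ) (c : κ → ℕ) (B : ℕ) (hB : ∀ i, r i ≤ B) :
    Fintype.card (Tab r c) ≤ (B + 1) ^ (Fintype.card ι * Fintype.card κ) := by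
  classical
  let φ : Tab r c → (ι × κ → Fin (B + 1)) := fun X ij =>
    ⟨X.1 ij.1 ij.2, Nat.lt_succ_of_le ((tab_entry_le_row X ij.1 ij.2).trans (hB ij.1))⟩
  have hφ : Function.Injective φ := by
    intro X Y h
    apply Subtype.ext
    funext i j
    have := congrFun h (i, j)
    simpa [φ] using congrArg Fin.val this
  have := Fintype.card_le_of_injective φ hφ
  simpa [Fintype.card_fun, Fintype.card_prod] using this

end Vale.Agent.Lib.P328
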