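import Vale.Agent.Lib.P328.Ops

/-!
MODULE Comm (P328).  FROZEN STATEMENT: `QQ_comm`.

ROUTE.  As in `Vale/Agent/Lib/P335/Core.lean` (`QQ_comm`): it suffices that
`avgL (key {i,j})` and `avgL (key {k,l})` commute; use `comm_of_range_invariant` (P335/Spectral):
one has to show that `avgK (key {k,l}) g` is `key {i,j}`-invariant whenever `g` is
(`avgK_of_inv`).  So let `key {i,j} X = key {i,j} Y` (X, Y agree off rows i, j).  Build the bijection
between the `{k,l}`-class of `X` and the `{k,l}`-class of `Y`:
`Z ↦ Z'` with `Z' a = Y a` for `a ∈ {i,j}` and `Z' a = Z a` otherwise.  `Z'` is a table: row sums are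
clear; column sums: `∑_a Z' a t = ∑_a Z a t` because `Z` has the rows `i, j` of `X` and
`X i t + X j t = Y i t + Y j t` (both tables have column sums `c` and agree off `{i,j}`; careful with
the case `i = j`, which is allowed: then `X = Y` by `eq_of_key_singleton`).  `Z` and `Z'` agree off
`{i,j}`, so `g Z = g Z'`; the classes have equal cardinality; hence the averages agree
(`Finset.sum_bij'` / `Finset.card_bij'` or `Finset.sum_nbij'`).
-/

namespace Vale.Agent.Lib.P328

open Finset
open Vale.Agent.Lib.P335 (avgK avgL IsSymm avgK_of_inv avgK_symm avgK_idem avgL_apply avgL_isSymm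
  avgK_congr sum_mul_sub_avgK comm_of_range_invariant)

variable {ι κ : Type} [Fintype ι] [DecidableEq ι] [Fintype κ]
variable {r : ι → ℕ} {c : κ → ℕ}

/-- replacing the rows in `I` of `Z` (which are those of `X`) by the rows of `Y` gives a table -/
theorem isTab_swapRows (I : Finset ι) (X Y Z : Tab r c) (hXY : ∀ a, a ∉ I → X.1 a = Y.1 a)
    (hZ : ∀ a, a ∈ I → Z.1 a = X.1 a) :
    IsTab r c (fun a => if a ∈ I then Y.1 a else Z.1 a) := by
  constructor
  · intro a
    by_cases ha : a ∈ I
    · simp only [ha, if_true]; exact Y.2.1 a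
    · simp only [ha, if_false]; exact Z.2.1 a
  · intro t
    have eW := (Finset.sum_add_sum_compl I
      (fun a => (if a ∈ I then Y.1 a else Z.1 a) t)).symm
    have eX := (Finset.sum_add_sum_compl I (fun a => X.1 a t)).symm
    have eY := (Finset.sum_add_sum_compl I (fun a => Y.1 a t)).symm
    have eZ := (Finset.sum_add_sum_compl I (fun a => Z.1 a t)).symm
    have w1 : ∑ a ∈ I, (if a ∈ I then Y.1 a else Z.1 a) t = ∑ a ∈ I, Y.1 a t :=
      Finset.sum_congr rfl (fun a ha => by simp only [ha, if_true])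
    have w2 : ∑ a ∈ Iᶜ, (if a ∈ I then Y.1 a else Z.1 a) t = ∑ a ∈ Iᶜ, Z.1 a t :=
      Finset.sum_congr rfl (fun a ha => by
        have : a ∉ I := by simpa using ha
        simp only [this, if_false])
    have x1 : ∑ a ∈ Iᶜ, X.1 a t = ∑ a ∈ Iᶜ, Y.1 a t :=
      Finset.sum_congr rfl (fun a ha => by rw [hXY a (by simpa using ha)])
    have z1 : ∑ a ∈ I, Z.1 a t = ∑ a ∈ I, X.1 a t :=
      Finset.sum_congr rfl (fun a ha => by rw [hZ a ha])
    have cX := X.2.2 t
    have cY := Y.2.2 t
    have cZ := Z.2.2 t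
    rw [eW, w1, w2]
    omega

/-- total version of the row replacement -/
noncomputable def swapRows (I : Finset ι) (Y Z : Tab r c) : Tab r c :=
  @Classical.epsilon _ ⟨Z⟩ (fun W : Tab r c => W.1 = fun a => if a ∈ I then Y.1 a else Z.1 a)

theorem swapRows_val (I : Finset ι) (X Y Z : Tab r c) (hXY : ∀ a, a ∉ I → X.1 a = Y.1 a)
    (hZ : ∀ a, a ∈ I → Z.1 a = X.1 a) :
    (swapRows I Y Z).1 = fun a => if a ∈ I then Y.1 a else Z.1 a := by
  have h := isTab_swapRows I X Y Z hXY hZ
  exact @Classical.epsilon_spec _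
    (fun W : Tab r c => W.1 = fun a => if a ∈ I then Y.1 a else Z.1 a) ⟨⟨_, h⟩, rfl⟩

/-- sums of `I`-invariant functions over the `J`-classes of two tables that agree off `I` -/
theorem sum_class_eq_of_disjoint {I J : Finset ι} (hIJ : Disjoint I J) (X Y : Tab r c)
    (hXY : key I X = key I Y) (u : Tab r c → ℝ)
    (hu : ∀ Z W : Tab r c, key I Z = key I W → u Z = u W) :
    ∑ Z ∈ univ.filter (fun Z => key J Z = key J X), u Z
      = ∑ Z ∈ univ.filter (fun Z => key J Z = key J Y), u Z := by
  rw [key_eq_iff] at hXY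
  have hYX : ∀ a, a ∉ I → Y.1 a = X.1 a := fun a ha => (hXY a ha).symm
  have hnot : ∀ a, a ∈ I → a ∉ J := fun a ha => Finset.disjoint_left.mp hIJ ha
  refine Finset.sum_nbij' (swapRows I Y) (swapRows I X) ?_ ?_ ?_ ?_ ?_
  · intro Z hZ
    simp only [mem_filter, mem_univ, true_and, key_eq_iff] at hZ ⊢
    intro a ha
    rw [swapRows_val I X Y Z hXY (fun a ha => hZ a (hnot a ha))]
    by_cases haI : a ∈ I
    · simp only [haI, if_true]
    · simp only [haI, if_false]; rw [hZ a ha, hXY a haI]
  · intro Z hZ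
    simp only [mem_filter, mem_univ, true_and, key_eq_iff] at hZ ⊢
    intro a ha
    rw [swapRows_val I Y X Z hYX (fun a ha => hZ a (hnot a ha))]
    by_cases haI : a ∈ I
    · simp only [haI, if_true]
    · simp only [haI, if_false]; rw [hZ a ha, hYX a haI]
  · intro Z hZ
    simp only [mem_filter, mem_univ, true_and, key_eq_iff] at hZ
    have h1 := swapRows_val I X Y Z hXY (fun a ha => hZ a (hnot a ha))
    apply Subtype.ext
    rw [swapRows_val I Y X (swapRows I Y Z) hYX (fun a ha => by rw [h1]; simp only [ha, if_true])]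
    funext a
    by_cases haI : a ∈ I
    · simp only [haI, if_true]; exact (hZ a (hnot a haI)).symm
    · simp only [haI, if_false]; rw [h1]; simp only [haI, if_false]
  · intro Z hZ
    simp only [mem_filter, mem_univ, true_and, key_eq_iff] at hZ
    have h1 := swapRows_val I Y X Z hYX (fun a ha => hZ a (hnot a ha))
    apply Subtype.ext
    rw [swapRows_val I X Y (swapRows I X Z) hXY (fun a ha => by rw [h1]; simp only [ha, if_true])]
    funext a
    by_cases haI : a ∈ I
    · simp only [haI, if_true]; exact (hZ a (hnot a haI)).symm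
    · simp only [haI, if_false]; rw [h1]; simp only [haI, if_false]
  · intro Z hZ
    simp only [mem_filter, mem_univ, true_and, key_eq_iff] at hZ
    apply hu
    rw [key_eq_iff]
    intro a ha
    rw [swapRows_val I X Y Z hXY (fun a ha => hZ a (hnot a ha))]
    simp only [ha, if_false]

theorem avgK_key_inv_of_disjoint {I J : Finset ι} (hIJ : Disjoint I J) (X Y : Tab r c)
    (hXY : key I X = key I Y) (u : Tab r c → ℝ)
    (hu : ∀ Z W : Tab r c, key I Z = key I W → u Z = u W) :
    avgK (key J) u X = avgK (key J) u Y := by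
  unfold avgK
  rw [sum_class_eq_of_disjoint hIJ X Y hXY u hu]
  have hc := sum_class_eq_of_disjoint hIJ X Y hXY (fun _ => (1 : ℝ)) (fun _ _ _ => rfl)
  simp only [Finset.sum_const, nsmul_eq_mul, mul_one] at hc
  rw [hc]

theorem QQ_comm (i j k l : ι) (h1 : i ≠ k) (h2 : i ≠ l) (h3 : j ≠ k) (h4 : j ≠ l)
    (f : Tab r c → ℝ) : QQ r c i j (QQ r c k l f) = QQ r c k l (QQ r c i j f) := by
  have hdisj : Disjoint ({i, j} : Finset ι) {k, l} := by
    rw [Finset.disjoint_left]
    intro x hx hx'
    simp only [mem_insert, mem_singleton] at hx hx'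
    rcases hx with rfl | rfl <;> rcases hx' with rfl | rfl <;> contradiction
  have hE : ∀ g : Tab r c → ℝ, avgL (key {i, j}) (avgL (key {k, l}) g)
      = avgL (key {k, l}) (avgL (key {i, j}) g) := by
    refine comm_of_range_invariant _ _ (avgL_isSymm _) (avgL_isSymm _) ?_
    intro g
    simp only [avgL_apply]
    refine avgK_of_inv _ _ (fun X Y hXY => ?_)
    exact avgK_key_inv_of_disjoint hdisj X Y hXY _ (fun Z W hZW => avgK_congr _ _ hZW)
  unfold QQ
  simp only [LinearMap.sub_apply, LinearMap.id_apply, map_sub]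
  rw [hE f]
  abel

end Vale.Agent.Lib.P328
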