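import Mathlib

/-!
Computational layer for the finite three-row check of P328 (DEFINITIONS ONLY, all computable and
kernel friendly: lists, naturals, rationals).

A row with sum `rho ∈ {1,2}` over the columns `0..s-1` is coded by a pair `(p,q)`:
`rho = 2`: the row `e_p + e_q` with `p ≤ q`;  `rho = 1`: the row `e_p` with `q = p`.
-/

namespace Vale.Agent.Lib.P328

/-- Schur complement step on the upper triangular list representation -/
def upd (a : ℚ) : List ℚ → List (List ℚ) → List (List ℚ)
  | ri :: rt, Ui :: U =>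
      (if ri == 0 then Ui else
        List.zipWith (fun rj u => if rj == 0 then u else u - ri * rj / a) (ri :: rt) Ui) :: upd a rt U
  | _, _ => []

/-- positive semidefiniteness test (symmetric Gaussian elimination); first argument = fuel -/
def psd : ℕ → List (List ℚ) → Bool
  | _, [] => true
  | 0, _ :: _ => false
  | _ + 1, [] :: _ => false
  | n + 1, (a :: row) :: U =>
      if 0 < a then psd n (upd a row U)
      else (a == 0 && row.all (· == 0)) && psd n U

/-- `∑ a_i x_i` -/
def dotq : List ℚ → List ℝ → ℝ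
  | a :: r, x :: v => (a : ℝ) * x + dotq r v
  | _, _ => 0

/-- the quadratic form of a symmetric matrix given by the rows of its upper triangle -/
def qf : List (List ℚ) → List ℝ → ℝ
  | (a :: row) :: U, x :: v => (a : ℝ) * x ^ 2 + 2 * x * dotq row v + qf U v
  | _, _ => 0

/-- well-formed upper triangle of an `n × n` matrix -/
def Tri : ℕ → List (List ℚ) → Prop
  | 0, U => U = []
  | n + 1, U => ∃ row U', U = row :: U' ∧ row.length = n + 1 ∧ Tri n U'

/-- upper triangle of the matrix `diag(D) + B` indexed by the list `L` -/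
def triG {T : Type} (D : T → ℚ) (B : T → T → ℚ) : List T → List (List ℚ)
  | [] => []
  | t :: L => ((D t + B t t) :: L.map (B t)) :: triG D B L

/-- multiplicity of column `j` in the row coded by `(rho,p,q)` -/
def cnt (rho p q j : ℕ) : ℕ :=
  (if p = j then 1 else 0) + (if rho = 2 ∧ q = j then 1 else 0)

/-- is `(p,q)` a valid code of a row of sum `rho`? (as a 0/1 weight) -/
def wt (rho p q : ℕ) : ℚ :=
  if rho = 2 then (if p ≤ q then 1 else 0) else (if p = q then 1 else 0)

/-- index of a variable: (row index a, row sum rho, p, q) -/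
abbrev Ix := ℕ × ℕ × ℕ × ℕ

/-- do the two coded rows fit together under the column sums `c`? -/
def fits (c : List ℕ) (t u : Ix) : Bool :=
  (c.zipIdx).all (fun cj => cnt t.2.1 t.2.2.1 t.2.2.2 cj.2 + cnt u.2.1 u.2.2.1 u.2.2.2 cj.2 ≤ cj.1)

/-- number (0 or 1) of tables containing both coded rows -/
def MM (c : List ℕ) (t u : Ix) : ℚ :=
  if fits c t u then wt t.2.1 t.2.2.1 t.2.2.2 * wt u.2.1 u.2.2.1 u.2.2.2 else 0

def pairs (s : ℕ) : List (ℕ × ℕ) :=
  (List.range s).flatMap (fun p => (List.range s).map (fun q => (p, q)))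

/-- row sum of row `a` (`a = 0,1,2`) -/
def rs (r : ℕ × ℕ × ℕ) (a : ℕ) : ℕ := if a = 0 then r.1 else if a = 1 then r.2.1 else r.2.2

/-- cyclic successor of a row index -/
def nx (a : ℕ) : ℕ := if a = 0 then 1 else if a = 1 then 2 else 0

def ix (r : ℕ × ℕ × ℕ) (a : ℕ) (b : ℕ × ℕ) : Ix := (a, rs r a, b.1, b.2)

/-- number of tables containing the coded row `t` of row index `a` -/
def om (s : ℕ) (c : List ℕ) (r : ℕ × ℕ × ℕ) (a : ℕ) (b : ℕ × ℕ) : ℚ :=
  ((pairs s).map (fun b' => MM c (ix r a b) (ix r (nx a) b'))).sum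

/-- all variables, each with its cached weight `om` -/
def idxW (s : ℕ) (c : List ℕ) (r : ℕ × ℕ × ℕ) : List (Ix × ℚ) :=
  [0, 1, 2].flatMap (fun a => (pairs s).map (fun b => (ix r a b, om s c r a b)))

/-- number of tables -/
def ZZ (s : ℕ) (c : List ℕ) (r : ℕ × ℕ × ℕ) : ℚ := ((pairs s).map (fun b => om s c r 0 b)).sum

def entB (c : List ℕ) (Z : ℚ) (t u : Ix × ℚ) : ℚ :=
  if t.1.1 = u.1.1 then - (t.2 * u.2) else - (Z * MM c t.1 u.1) + t.2 * u.2

/-- the finite check: the matrix of `Z * (∑ Var - 2 ∑ Cov)` is positive semidefinite -/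
def check (s : ℕ) (c : List ℕ) (r : ℕ × ℕ × ℕ) : Bool :=
  psd (3 * (s * s)) (triG (fun t => ZZ s c r * t.2) (entB c (ZZ s c r)) (idxW s c r))

/-- all compositions of `n` (lists of positive integers with sum `n`) -/
def comps : ℕ → List (List ℕ)
  | 0 => [[]]
  | n + 1 => (comps n).flatMap (fun l => (1 :: l) :: (match l with
      | [] => []
      | h :: t => [(h + 1) :: t]))

end Vale.Agent.Lib.P328
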