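import Vale.Agent.Lib.P328.Ops

/-!
MODULE Connect (P328).  FROZEN STATEMENT: `const_of_pair_inv`.

Any two contingency tables with the same margins are connected by moves that change only two rows.

ROUTE.  Strong induction on `d(X,Y) = ∑ i, ∑ j, (X i j - Y i j).natAbs` (cast to ℤ) or on
`∑ i j, (X i j - Y i j)` (truncated subtraction; it is `0` iff `X = Y` because all margins agree).
If `X ≠ Y` pick `(i1, j1)` with `X i1 j1 > Y i1 j1`.  Row sums agree: there is `j2` with
`X i1 j2 < Y i1 j2`.  Column sums agree: there is `i2` with `X i2 j2 > Y i2 j2` (so `i2 ≠ i1`,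
`j2 ≠ j1`).  Let `X' = X - e(i1,j1) + e(i1,j2) - e(i2,j2) + e(i2,j1)`; it is a table
(`X i1 j1 ≥ 1`, `X i2 j2 ≥ 1`), it agrees with `X` off the rows `i1, i2`, so `f X' = f X`, and
`d(X',Y) ≤ d(X,Y) - 2` (three entries get closer by one, the fourth moves by at most one).
-/

namespace Vale.Agent.Lib.P328

open Finset

variable {ι κ : Type} [Fintype ι] [DecidableEq ι] [Fintype κ]
variable {r : ι → ℕ} {c : κ → ℕ}

/-- unit mass at `(a, b)` -/
def unitAt [DecidableEq κ] (a : ι) (b : κ) (i : ι) (j : κ) : ℕ := if i = a ∧ j = b then 1 else 0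

theorem sum_unitAt_col [DecidableEq κ] (a : ι) (b : κ) (i : ι) :
    ∑ j, unitAt a b i j = if i = a then 1 else 0 := by
  unfold unitAt
  by_cases h : i = a <;> simp [h]

theorem sum_unitAt_row [DecidableEq κ] (a : ι) (b : κ) (j : κ) :
    ∑ i, unitAt a b i j = if j = b then 1 else 0 := by
  unfold unitAt
  by_cases h : j = b <;> simp [h]

theorem sum_sum_unitAt [DecidableEq κ] (a : ι) (b : κ) :
    ∑ i, ∑ j, unitAt a b i j = 1 := by
  simp [sum_unitAt_col]

theorem const_of_pair_inv (f : Tab r c → ℝ)
    (h : ∀ (i i' : ι) (X Y : Tab r c), key {i, i'} X = key {i, i'} Y → f X = f Y)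
    (X Y : Tab r c) : f X = f Y := by
  classical
  induction' hn : (∑ i, ∑ j, (X.1 i j - Y.1 i j)) using Nat.strong_induction_on with n ih
    generalizing X
  by_cases hXY : X = Y
  · rw [hXY]
  have h1 : ∃ i1 j1, Y.1 i1 j1 < X.1 i1 j1 := by
    by_contra hcon
    push Not at hcon
    apply hXY
    apply Subtype.ext
    funext i j
    by_contra hne
    have hlt : X.1 i j < Y.1 i j := lt_of_le_of_ne (hcon i j) hne
    have := Finset.sum_lt_sum (fun j _ => hcon i j) ⟨j, mem_univ j, hlt⟩
    rw [X.2.1, Y.2.1] at this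
    omega
  obtain ⟨i1, j1, h11⟩ := h1
  have h2 : ∃ j2, X.1 i1 j2 < Y.1 i1 j2 := by
    by_contra hcon
    push Not at hcon
    have := Finset.sum_lt_sum (fun j _ => hcon j) ⟨j1, mem_univ j1, h11⟩
    rw [X.2.1, Y.2.1] at this
    omega
  obtain ⟨j2, h12⟩ := h2
  have h3 : ∃ i2, Y.1 i2 j2 < X.1 i2 j2 := by
    by_contra hcon
    push Not at hcon
    have := Finset.sum_lt_sum (fun i _ => hcon i) ⟨i1, mem_univ i1, h12⟩
    rw [X.2.2, Y.2.2] at this
    omega
  obtain ⟨i2, h22⟩ := h3
  have hi : i2 ≠ i1 := by rintro rfl; omega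
  have hj : j2 ≠ j1 := by rintro rfl; omega
  set X' : ι → κ → ℕ := fun i j =>
    X.1 i j + (unitAt i1 j2 i j + unitAt i2 j1 i j) - (unitAt i1 j1 i j + unitAt i2 j2 i j) with hX'
  have hpt : ∀ i j, X' i j + (unitAt i1 j1 i j + unitAt i2 j2 i j)
      = X.1 i j + (unitAt i1 j2 i j + unitAt i2 j1 i j) := by
    intro i j
    have hle : unitAt i1 j1 i j + unitAt i2 j2 i j ≤ X.1 i j := by
      unfold unitAt
      by_cases a1 : i = i1
      · subst a1
        by_cases b1 : j = j1
        · subst b1
          simp [Ne.symm hi]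
          omega
        · simp [b1, Ne.symm hi]
      · by_cases a2 : i = i2
        · subst a2
          by_cases b2 : j = j2
          · subst b2
            simp [a1]
            omega
          · simp [a1, b2]
        · simp [a1, a2]
    simp only [hX']
    omega
  have htab : IsTab r c X' := by
    constructor
    · intro i
      have := Finset.sum_congr rfl (fun j (_ : j ∈ (univ : Finset κ)) => hpt i j)
      simp only [Finset.sum_add_distrib, sum_unitAt_col] at this
      rw [X.2.1] at this
      omega
    · intro j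
      have := Finset.sum_congr rfl (fun i (_ : i ∈ (univ : Finset ι)) => hpt i j)
      simp only [Finset.sum_add_distrib, sum_unitAt_row] at this
      rw [X.2.2] at this
      omega
  obtain ⟨Z, hZ⟩ : ∃ Z : Tab r c, Z.1 = X' := ⟨⟨X', htab⟩, rfl⟩
  have hkey : key {i1, i2} X = key {i1, i2} Z := by
    rw [key_eq_iff]
    intro k hk
    simp only [mem_insert, mem_singleton, not_or] at hk
    funext j
    rw [hZ]
    simp [hX', unitAt, hk.1, hk.2]
  have hdec : ∀ i j, (X' i j - Y.1 i j) + (unitAt i1 j1 i j + unitAt i2 j2 i j)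
      ≤ (X.1 i j - Y.1 i j) + unitAt i2 j1 i j := by
    intro i j
    have hp := hpt i j
    revert hp
    unfold unitAt
    by_cases a1 : i = i1
    · subst a1
      by_cases b1 : j = j1
      · subst b1
        simp [Ne.symm hi, Ne.symm hj]
        omega
      · by_cases b2 : j = j2
        · subst b2
          simp [Ne.symm hi, hj]
          omega
        · simp [Ne.symm hi, b1, b2]
          omega
    · by_cases a2 : i = i2
      · subst a2
        by_cases b1 : j = j1
        · subst b1
          simp [hi, Ne.symm hj]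
          omega
        · by_cases b2 : j = j2
          · subst b2
            simp [hi, hj]
            omega
          · simp [hi, b1, b2]
            omega
      · simp [a1, a2]
        omega
  have hlt : ∑ i, ∑ j, (X' i j - Y.1 i j) < n := by
    have := Finset.sum_le_sum (fun i (_ : i ∈ (univ : Finset ι)) =>
      Finset.sum_le_sum (fun j (_ : j ∈ (univ : Finset κ)) => hdec i j))
    simp only [Finset.sum_add_distrib, sum_sum_unitAt] at this
    omega
  rw [h i1 i2 X Z hkey]
  exact ih _ hlt Z (by rw [hZ])

end Vale.Agent.Lib.P328
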