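import Mathlib

/-!
Contingency tables (nonnegative integer matrices with prescribed row and column sums) and the
heat-bath chain that resamples two rows.  Problem P328.
-/

namespace Vale.Agent.Lib.P328

open Finset Classical

variable {ι κ : Type} [Fintype ι] [Fintype κ]

/-- `X` is a contingency table with row sums `r` and column sums `c`. -/
def IsTab (r : ι → ℕ) (c : κ → ℕ) (X : ι → κ → ℕ) : Prop :=
  (∀ i, ∑ j, X i j = r i) ∧ (∀ j, ∑ i, X i j = c j)

/-- `Tab r c`: the set `Ω(r,c)` of all contingency tables with margins `r`, `c`. -/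
def Tab (r : ι → ℕ) (c : κ → ℕ) : Type := {X : ι → κ → ℕ // IsTab r c X}

theorem tab_entry_le_row {r : ι → ℕ} {c : κ → ℕ} (X : Tab r c) (i : ι) (j : κ) : X.1 i j ≤ r i := by
  rw [← X.2.1 i]
  exact Finset.single_le_sum (f := fun j => X.1 i j) (fun _ _ => Nat.zero_le _) (Finset.mem_univ j)

theorem tab_entry_le_col {r : ι → ℕ} {c : κ → ℕ} (X : Tab r c) (i : ι) (j : κ) : X.1 i j ≤ c j := by
  rw [← X.2.2 j]
  exact Finset.single_le_sum (f := fun i => X.1 i j) (fun _ _ => Nat.zero_le _) (Finset.mem_univ i)

instance tabFinite (r : ι → ℕ) (c : κ → ℕ) : Finite (Tab r c) := by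
  have hfin : (Set.Iic (fun (i : ι) (_ : κ) => r i)).Finite := Set.finite_Iic _
  have hsub : {X : ι → κ → ℕ | IsTab r c X} ⊆ Set.Iic (fun (i : ι) (_ : κ) => r i) := by
    intro X hX i j
    exact tab_entry_le_row (⟨X, hX⟩ : Tab r c) i j
  exact (hfin.subset hsub).to_subtype

noncomputable instance tabFintype (r : ι → ℕ) (c : κ → ℕ) : Fintype (Tab r c) := Fintype.ofFinite _

/-- the tables that agree with `X` in all rows other than `i` and `i'` -/
noncomputable def pairClass {r : ι → ℕ} {c : κ → ℕ} (i i' : ι) (X : Tab r c) : Finset (Tab r c) :=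
  univ.filter (fun Y => ∀ k, k ≠ i → k ≠ i' → Y.1 k = X.1 k)

/-- Transition matrix of the two-row heat-bath chain: choose an ordered pair of rows `(i, i')`
uniformly at random among all `|ι|^2` pairs and replace the current table `X` by a uniformly random
table that agrees with `X` outside the rows `i`, `i'` (for `i = i'` nothing changes). -/
noncomputable def heatBath (r : ι → ℕ) (c : κ → ℕ) : Matrix (Tab r c) (Tab r c) ℝ :=
  fun X Y => (∑ i, ∑ i', if Y ∈ pairClass i i' X then 1 / ((pairClass i i' X).card : ℝ) else 0)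
    / (Fintype.card ι : ℝ) ^ 2

/-- total variation distance of two real vectors on a finite type -/
noncomputable def tvDist {Ω : Type} [Fintype Ω] (μ ν : Ω → ℝ) : ℝ := (1 / 2) * ∑ x, |μ x - ν x|

end Vale.Agent.Lib.P328
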