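import Vale.Agent.Lib.P328.Sym

/-! Kernel-friendlier versions of the Boolean checks of P328 (invalid codes are discarded before the
expensive test `fits`), with proofs that they compute the same thing. -/

namespace Vale.Agent.Lib.P328

/-- validity of a code, as a Boolean -/
def vld (rho p q : ℕ) : Bool := if rho = 2 then decide (p ≤ q) else decide (p = q)

theorem wt_eq (rho p q : ℕ) : wt rho p q = if vld rho p q then 1 else 0 := by
  unfold wt vld
  by_cases h : rho = 2
  · by_cases h' : p ≤ q <;> simp [h, h']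
  · by_cases h' : p = q <;> simp [h, h']

def MMf (c : List ℕ) (t u : Ix) : ℚ :=
  if vld t.2.1 t.2.2.1 t.2.2.2 && (vld u.2.1 u.2.2.1 u.2.2.2 && fits c t u) then 1 else 0

theorem MMf_eq : MMf = MM := by
  funext c t u
  unfold MMf MM
  rw [wt_eq, wt_eq]
  cases vld t.2.1 t.2.2.1 t.2.2.2 <;> cases vld u.2.1 u.2.2.1 u.2.2.2 <;> cases fits c t u <;> simp

def omf (s : ℕ) (c : List ℕ) (r : ℕ × ℕ × ℕ) (a : ℕ) (b : ℕ × ℕ) : ℚ :=
  ((pairs s).map (fun b' => MMf c (ix r a b) (ix r (nx a) b'))).sum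

theorem omf_eq : omf = om := by
  funext s c r a b
  simp only [omf, om, MMf_eq]

def idxWf (s : ℕ) (c : List ℕ) (r : ℕ × ℕ × ℕ) : List (Ix × ℚ) :=
  [0, 1, 2].flatMap (fun a => (pairs s).map (fun b => (ix r a b, omf s c r a b)))

theorem idxWf_eq : idxWf = idxW := by
  funext s c r
  simp only [idxWf, idxW, omf_eq]

def ZZf (s : ℕ) (c : List ℕ) (r : ℕ × ℕ × ℕ) : ℚ := ((pairs s).map (fun b => omf s c r 0 b)).sum

theorem ZZf_eq : ZZf = ZZ := by
  funext s c r
  simp only [ZZf, ZZ, omf_eq]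

def entBf (c : List ℕ) (Z : ℚ) (t u : Ix × ℚ) : ℚ :=
  if t.1.1 = u.1.1 then - (t.2 * u.2) else - (Z * MMf c t.1 u.1) + t.2 * u.2

theorem entBf_eq : entBf = entB := by
  funext c Z t u
  simp only [entBf, entB, MMf_eq]

def checkf (s : ℕ) (c : List ℕ) (r : ℕ × ℕ × ℕ) : Bool :=
  psd (3 * (s * s)) (triG (fun t => ZZf s c r * t.2) (entBf c (ZZf s c r)) (idxWf s c r))

theorem checkf_eq : checkf = check := by
  funext s c r
  simp only [checkf, check, ZZf_eq, entBf_eq, idxWf_eq]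

def idx1f (s : ℕ) (c : List ℕ) (rho : ℕ) : List (Ix × ℚ) :=
  (pairs s).map (fun b => (ix (rho, rho, rho) 0 b, omf s c (rho, rho, rho) 0 b))

def entSf (c : List ℕ) (Z : ℚ) (t u : Ix × ℚ) : ℚ := - (2 * Z * MMf c t.1 u.1) + 2 * (t.2 * u.2)

def checkSf (s : ℕ) (c : List ℕ) (rho : ℕ) : Bool :=
  psd (s * s) (triG (fun t => ZZf s c (rho, rho, rho) * t.2) (entSf c (ZZf s c (rho, rho, rho)))
    (idx1f s c rho))

theorem checkSf_eq : checkSf = checkS := by
  funext s c rho
  have h1 : idx1f = idx1 := by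
    funext s c rho
    simp only [idx1f, idx1, omf_eq]
  have h2 : entSf = entS := by
    funext c Z t u
    simp only [entSf, entS, MMf_eq]
  simp only [checkSf, checkS, ZZf_eq, h1, h2]

end Vale.Agent.Lib.P328
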