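import Vale.Agent.Lib.P328.Defs

/-!
MODULE FibreCols (P328).  FROZEN STATEMENT: `col_equiv`.
Columns with column sum `0` can be deleted and the remaining ones numbered by `Fin s`.

ROUTE.  Let `S = univ.filter (fun t => 0 < c t)`, `s = S.card`, `e t = (S.equivFin.symm t).1`
(injective, range `= S`).  `E Z := ⟨fun a t => Z.1 a (e t), _⟩`: column sums are immediate; row sums:
`∑ t, Z a (e t) = ∑ j, Z a j` by `Fintype.sum_of_injective` (or `Finset.sum_subtype` + `Equiv.sum_comp`)
since `Z a j ≤ c j = 0` off the range (`tab_entry_le_col`).  Inverse: `W ↦ fun a => Function.extend e (W a) 0`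
(`Function.Injective.extend_apply`, `Function.extend_apply'`).  Or `Equiv.ofBijective`.
Last claim: two rows that agree on the range of `e` and vanish off it are equal.
-/

namespace Vale.Agent.Lib.P328

open Finset

variable {ι κ : Type} [Fintype ι] [Fintype κ]

theorem col_equiv (r : ι → ℕ) (c : κ → ℕ) :
    ∃ (s : ℕ) (e : Fin s → κ) (E : Tab r c ≃ Tab r (fun t => c (e t))),
      (∀ t, 0 < c (e t)) ∧ (∀ Z Z' a, (E Z).1 a = (E Z').1 a → Z.1 a = Z'.1 a) := by
  classical
  set S : Finset κ := univ.filter (fun t => 0 < c t) with hS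
  have hSmem : ∀ j, j ∈ S ↔ 0 < c j := by
    intro j
    simp [hS]
  set e : Fin S.card → κ := fun t => (S.equivFin.symm t).1 with he
  have he_inj : Function.Injective e := by
    intro t t' h
    exact S.equivFin.symm.injective (Subtype.ext h)
  have he_pos : ∀ t, 0 < c (e t) := by
    intro t
    exact (hSmem _).1 (S.equivFin.symm t).2
  have he_range : ∀ j, j ∉ Set.range e → c j = 0 := by
    intro j hj
    by_contra hne
    apply hj
    have hjS : j ∈ S := (hSmem j).2 (Nat.pos_of_ne_zero hne)
    refine ⟨S.equivFin ⟨j, hjS⟩, ?_⟩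
    simp [he]
  have hzero : ∀ (Z : Tab r c) a j, j ∉ Set.range e → Z.1 a j = 0 := by
    intro Z a j hj
    have := tab_entry_le_col Z a j
    rw [he_range j hj] at this
    omega
  have hin : ∀ (w : Fin S.card → ℕ) t, Function.extend e w 0 (e t) = w t :=
    fun w t => he_inj.extend_apply w 0 t
  have hout : ∀ (w : Fin S.card → ℕ) j, j ∉ Set.range e → Function.extend e w 0 j = 0 := by
    intro w j hj
    rw [Function.extend_apply' _ _ _ (by simpa using hj)]
    rfl
  have hfwd : ∀ Z : Tab r c, IsTab r (fun t => c (e t)) (fun a t => Z.1 a (e t)) := by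
    intro Z
    refine ⟨fun a => ?_, fun t => Z.2.2 (e t)⟩
    rw [← Z.2.1 a]
    exact Fintype.sum_of_injective e he_inj _ _ (fun j hj => hzero Z a j hj) (fun _ => rfl)
  have hbwd : ∀ W : Tab r (fun t => c (e t)), IsTab r c (fun a => Function.extend e (W.1 a) 0) := by
    intro W
    refine ⟨fun a => ?_, fun j => ?_⟩
    · rw [← W.2.1 a]
      exact (Fintype.sum_of_injective e he_inj _ _ (fun j hj => hout (W.1 a) j hj)
        (fun t => (hin (W.1 a) t).symm)).symm
    · by_cases hj : j ∈ Set.range e
      · obtain ⟨t, rfl⟩ := hj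
        have h2 := W.2.2 t
        simp only [hin]
        exact h2
      · rw [he_range j hj]
        exact Finset.sum_eq_zero fun a _ => hout (W.1 a) j hj
  refine ⟨S.card, e, ⟨fun Z => ⟨_, hfwd Z⟩, fun W => ⟨_, hbwd W⟩, ?_, ?_⟩, he_pos, ?_⟩
  · intro Z
    apply Subtype.ext
    funext a j
    show Function.extend e (fun t => Z.1 a (e t)) 0 j = Z.1 a j
    by_cases hj : j ∈ Set.range e
    · obtain ⟨t, rfl⟩ := hj
      rw [hin]
    · rw [hout _ j hj, hzero Z a j hj]
  · intro W
    apply Subtype.ext
    funext a t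
    show Function.extend e (W.1 a) 0 (e t) = W.1 a t
    rw [hin]
  · intro Z Z' a h
    funext j
    by_cases hj : j ∈ Set.range e
    · obtain ⟨t, rfl⟩ := hj
      exact congrFun h t
    · rw [hzero Z a j hj, hzero Z' a j hj]

end Vale.Agent.Lib.P328
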