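import Vale.Agent.Lib.P328.Ops

/-!
MODULE FibreRows (P328).  FROZEN STATEMENT: `fibre_equiv`.
The tables that agree with `X0` outside three distinct rows `i, j, k` are the same thing as the
three-row tables with row sums `(r k, r j, r i)` and the residual column sums.

ROUTE.  `toFun X := ⟨![X k, X j, X i], _⟩`: row sums from `X.2.1` (`Fin.forall_fin_succ`/`fin_cases`),
column sums: `Fin.sum_univ_three`, and `X i t + X j t + X k t = X0 i t + X0 j t + X0 k t` because
both tables have column sum `c t` and agree off `{i,j,k}` (`key_eq_iff`; split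
`∑ a, X a t = X i t + X j t + X k t + ∑ a ∈ univ \ {i,j,k}, X a t`, e.g. by
`Finset.sum_sdiff`/`Finset.add_sum_erase` three times).
`invFun Z := ⟨⟨fun a => if a = k then Z 0 else if a = j then Z 1 else if a = i then Z 2 else X0 a, _⟩, _⟩`.
Alternatively use `Equiv.ofBijective toFun ⟨inj, surj⟩`.
-/

namespace Vale.Agent.Lib.P328

open Finset

variable {ι κ : Type} [Fintype ι] [DecidableEq ι] [Fintype κ]
variable {r : ι → ℕ} {c : κ → ℕ}

theorem sum_split_three (i j k : ι) (hij : i ≠ j) (hik : i ≠ k) (hjk : j ≠ k) (F : ι → ℕ) :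
    ∑ a, F a = F i + F j + F k + ∑ a ∈ univ \ {i, j, k}, F a := by
  rw [← Finset.sum_sdiff (Finset.subset_univ ({i, j, k} : Finset ι))]
  rw [Finset.sum_insert (by simp [hij, hik]), Finset.sum_insert (by simp [hjk]),
    Finset.sum_singleton]
  ring

theorem three_eq_of_key (i j k : ι) (hij : i ≠ j) (hik : i ≠ k) (hjk : j ≠ k) (X X0 : Tab r c)
    (h : key {i, j, k} X = key {i, j, k} X0) (t : κ) :
    X.1 i t + X.1 j t + X.1 k t = X0.1 i t + X0.1 j t + X0.1 k t := by
  rw [key_eq_iff] at h
  have h1 := X.2.2 t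
  have h2 := X0.2.2 t
  rw [sum_split_three i j k hij hik hjk (fun a => X.1 a t)] at h1
  rw [sum_split_three i j k hij hik hjk (fun a => X0.1 a t)] at h2
  have h3 : ∑ a ∈ univ \ {i, j, k}, X.1 a t = ∑ a ∈ univ \ {i, j, k}, X0.1 a t :=
    Finset.sum_congr rfl fun a ha => by rw [h a (Finset.mem_sdiff.mp ha).2]
  omega

theorem fibre_equiv (i j k : ι) (hij : i ≠ j) (hik : i ≠ k) (hjk : j ≠ k) (X0 : Tab r c) :
    ∃ e : {X : Tab r c // key {i, j, k} X = key {i, j, k} X0} ≃
        Tab (ι := Fin 3) ![r k, r j, r i] (fun t => X0.1 i t + X0.1 j t + X0.1 k t),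
      ∀ X, (e X).1 0 = X.1.1 k ∧ (e X).1 1 = X.1.1 j ∧ (e X).1 2 = X.1.1 i := by
  classical
  let toF : {X : Tab r c // key {i, j, k} X = key {i, j, k} X0} →
      Tab (ι := Fin 3) ![r k, r j, r i] (fun t => X0.1 i t + X0.1 j t + X0.1 k t) := fun X =>
    ⟨![X.1.1 k, X.1.1 j, X.1.1 i], by
      constructor
      · intro a
        fin_cases a
        · exact X.1.2.1 k
        · exact X.1.2.1 j
        · exact X.1.2.1 i
      · intro t
        rw [Fin.sum_univ_three]
        have := three_eq_of_key i j k hij hik hjk X.1 X0 X.2 t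
        show X.1.1 k t + X.1.1 j t + X.1.1 i t = X0.1 i t + X0.1 j t + X0.1 k t
        omega⟩
  have hinj : Function.Injective toF := by
    intro X Y h
    have h0 : X.1.1 k = Y.1.1 k := congrFun (congrArg Subtype.val h) 0
    have h1 : X.1.1 j = Y.1.1 j := congrFun (congrArg Subtype.val h) 1
    have h2 : X.1.1 i = Y.1.1 i := congrFun (congrArg Subtype.val h) 2
    apply Subtype.ext
    apply Subtype.ext
    funext a
    by_cases hak : a = k
    · rw [hak, h0]
    by_cases haj : a = j
    · rw [haj, h1]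
    by_cases hai : a = i
    · rw [hai, h2]
    have hX := (key_eq_iff _ _ _).mp X.2 a (by simp [hak, haj, hai])
    have hY := (key_eq_iff _ _ _).mp Y.2 a (by simp [hak, haj, hai])
    rw [hX, hY]
  have hsurj : Function.Surjective toF := by
    intro Z
    let W : ι → κ → ℕ := fun a =>
      if a = k then Z.1 0 else if a = j then Z.1 1 else if a = i then Z.1 2 else X0.1 a
    have hWk : W k = Z.1 0 := by simp [W]
    have hWj : W j = Z.1 1 := by simp [W, hjk]
    have hWi : W i = Z.1 2 := by simp [W, hik, hij]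
    have hWo : ∀ a, a ∉ ({i, j, k} : Finset ι) → W a = X0.1 a := by
      intro a ha
      simp only [Finset.mem_insert, Finset.mem_singleton, not_or] at ha
      simp [W, ha.1, ha.2.1, ha.2.2]
    have hW : IsTab r c W := by
      constructor
      · intro a
        by_cases hak : a = k
        · rw [hak, hWk]; exact Z.2.1 0
        by_cases haj : a = j
        · rw [haj, hWj]; exact Z.2.1 1
        by_cases hai : a = i
        · rw [hai, hWi]; exact Z.2.1 2
        rw [hWo a (by simp [hak, haj, hai])]
        exact X0.2.1 a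
      · intro t
        have h2 := X0.2.2 t
        rw [sum_split_three i j k hij hik hjk (fun a => X0.1 a t)] at h2
        rw [sum_split_three i j k hij hik hjk (fun a => W a t)]
        have h3 : ∑ a ∈ univ \ {i, j, k}, W a t = ∑ a ∈ univ \ {i, j, k}, X0.1 a t :=
          Finset.sum_congr rfl fun a ha => by rw [hWo a (Finset.mem_sdiff.mp ha).2]
        have h4 := Z.2.2 t
        rw [Fin.sum_univ_three] at h4
        simp only at h4
        simp only [h3, hWk, hWj, hWi]
        omega
    refine ⟨⟨⟨W, hW⟩, (key_eq_iff _ _ _).mpr hWo⟩, ?_⟩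
    apply Subtype.ext
    funext a
    fin_cases a
    · exact hWk
    · exact hWj
    · exact hWi
  refine ⟨Equiv.ofBijective toF ⟨hinj, hsurj⟩, fun X => ⟨rfl, rfl, rfl⟩⟩

end Vale.Agent.Lib.P328
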