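import Vale.Agent.Lib.P328.Comp

/-!
MODULE TriG (P328).  FROZEN STATEMENTS: `tri_triG`, `qf_triG`.

ROUTE.  Both by induction on `L`.  For `qf_triG` with `L = t :: L'`:
`qf = (D t + B t t) w_t^2 + 2 w_t * dotq (L'.map (B t)) (L'.map w) + qf (triG D B L') (L'.map w)`,
`dotq (L'.map (B t)) (L'.map w) = (L'.map fun u => B t u * w u).sum` (induction), and the double sum
over `t :: L'` splits into the corner `B t t w_t^2`, the first row, the first column (equal to the
first row by the symmetry `hB`) and the double sum over `L'` (`List.sum_map_add`, `List.sum_map_mul_left`).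
-/

namespace Vale.Agent.Lib.P328

theorem tri_triG {T : Type} (D : T → ℚ) (B : T → T → ℚ) (L : List T) :
    Tri L.length (triG D B L) := by
  induction L with
  | nil => simp [Tri, triG]
  | cons t L ih =>
    refine ⟨_, _, rfl, ?_, ih⟩
    simp

theorem dotq_map {T : Type} (b : T → ℚ) (w : T → ℝ) (L : List T) :
    dotq (L.map b) (L.map w) = (L.map (fun u => (b u : ℝ) * w u)).sum := by
  induction L with
  | nil => simp [dotq]
  | cons t L ih => simp [dotq, ih]

theorem qf_triG {T : Type} (D : T → ℚ) (B : T → T → ℚ) (hB : ∀ t u, B t u = B u t) (w : T → ℝ)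
    (L : List T) :
    qf (triG D B L) (L.map w) = (L.map (fun t => (D t : ℝ) * w t ^ 2)).sum
      + (L.map (fun t => (L.map (fun u => (B t u : ℝ) * w t * w u)).sum)).sum := by
  induction L with
  | nil => simp [qf, triG]
  | cons t L ih =>
    simp only [triG, List.map_cons, qf, List.sum_cons, dotq_map, ih]
    have h1 : (L.map (fun t_1 => (B t_1 t : ℝ) * w t_1 * w t
        + (L.map (fun u => (B t_1 u : ℝ) * w t_1 * w u)).sum)).sum
        = (L.map (fun t_1 => (B t_1 t : ℝ) * w t_1 * w t)).sum
          + (L.map (fun t_1 => (L.map (fun u => (B t_1 u : ℝ) * w t_1 * w u)).sum)).sum := by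
      rw [List.sum_map_add]
    have h2 : (L.map (fun t_1 => (B t_1 t : ℝ) * w t_1 * w t)).sum
        = w t * (L.map (fun u => (B t u : ℝ) * w u)).sum := by
      rw [← List.sum_map_mul_left]
      congr 1
      apply List.map_congr_left
      intro u _
      rw [hB u t]; ring
    have h3 : (L.map (fun u => (B t u : ℝ) * w t * w u)).sum
        = w t * (L.map (fun u => (B t u : ℝ) * w u)).sum := by
      rw [← List.sum_map_mul_left]
      congr 1
      apply List.map_congr_left
      intro u _
      ring
    rw [h1, h2, h3]
    push_cast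
    ring

end Vale.Agent.Lib.P328
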