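import Vale.Agent.Lib.P328.PSD
import Vale.Agent.Lib.P328.TriG

/-!
MODULE GoodL (P328).  FROZEN STATEMENT: `goodL_of_check`.
From the Boolean check to the real quadratic inequality, everything in list-sum form.

ROUTE.  Let `L = idxW s c r`, `Z = ZZ s c r`, `w : Ix × ℚ → ℝ := fun t => v t.1.1 (t.1.2.2.1, t.1.2.2.2)`.
`psd_sound L.length _ _ (tri_triG ..) h (L.map w) (by simp)` gives `0 ≤ qf (triG ..) (L.map w)`;
rewrite with `qf_triG` (`entB` is symmetric because `MM c t u = MM c u t`: `fits` is symmetric by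
`add_comm`, the product of weights by `mul_comm`; and `t.1.1 = u.1.1 ↔ u.1.1 = t.1.1`).
`L` is the concatenation of the three blocks `a = 0,1,2` (`List.flatMap_cons`, `List.map_append`,
`List.sum_append`, `List.map_map`).  On the block pair `(a,a)`: `entB = - om * om`, the double sum is
`-(∑ om v)^2 = 0` by `h0/h1/h2` (`List.sum_map_mul_left/right`).  On `(a,a')`, `a ≠ a'`:
`- Z * MM + om * om'`, the second part again vanishes.  `SS a' a = SS a a'` by symmetry of `MM` and
exchange of the two list sums (`List.sum_map_comm`-type lemma: induction).  Collect terms.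
-/

namespace Vale.Agent.Lib.P328

/-- `∑_{b,b'} MM(a b, a' b') v_a(b) v_a'(b')` -/
noncomputable def SS (s : ℕ) (c : List ℕ) (r : ℕ × ℕ × ℕ) (v : ℕ → ℕ × ℕ → ℝ) (a a' : ℕ) : ℝ :=
  ((pairs s).map (fun b => ((pairs s).map
    (fun b' => (MM c (ix r a b) (ix r a' b') : ℝ) * v a b * v a' b')).sum)).sum

/-- `∑_b om_a(b) g(b)` -/
noncomputable def S1 (s : ℕ) (c : List ℕ) (r : ℕ × ℕ × ℕ) (a : ℕ) (g : ℕ × ℕ → ℝ) : ℝ :=
  ((pairs s).map (fun b => (om s c r a b : ℝ) * g b)).sum

theorem list_sum_prod {α β : Type} (l : List α) (l' : List β) (f : α → ℝ) (g : β → ℝ) :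
    (l.map (fun a => (l'.map (fun b => f a * g b)).sum)).sum
      = (l.map f).sum * (l'.map g).sum := by
  simp [List.sum_map_mul_left, List.sum_map_mul_right]

theorem list_sum_comm {α β : Type} (l : List α) (l' : List β) (F : α → β → ℝ) :
    (l.map (fun a => (l'.map (fun b => F a b)).sum)).sum
      = (l'.map (fun b => (l.map (fun a => F a b)).sum)).sum := by
  induction l with
  | nil => simp
  | cons a l ih => simp [ih, List.sum_map_add]

theorem list_sum2_lin {α β : Type} (l : List α) (l' : List β) (k : ℝ) (F G : α → β → ℝ) :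
    (l.map (fun a => (l'.map (fun b => k * F a b + G a b)).sum)).sum
      = k * (l.map (fun a => (l'.map (fun b => F a b)).sum)).sum
        + (l.map (fun a => (l'.map (fun b => G a b)).sum)).sum := by
  simp [List.sum_map_add, List.sum_map_mul_left]

theorem list_sum2_congr {α β : Type} (l : List α) (l' : List β) (F G : α → β → ℝ)
    (h : ∀ a b, F a b = G a b) :
    (l.map (fun a => (l'.map (fun b => F a b)).sum)).sum
      = (l.map (fun a => (l'.map (fun b => G a b)).sum)).sum := by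
  simp [h]

theorem fits_comm (c : List ℕ) (t u : Ix) : fits c t u = fits c u t := by
  simp [fits, add_comm]

theorem MM_comm (c : List ℕ) (t u : Ix) : MM c t u = MM c u t := by
  simp [MM, fits_comm c t u, mul_comm]

theorem entB_comm (c : List ℕ) (Z : ℚ) (t u : Ix × ℚ) : entB c Z t u = entB c Z u t := by
  unfold entB
  by_cases h : t.1.1 = u.1.1
  · rw [if_pos h, if_pos h.symm, mul_comm]
  · rw [if_neg h, if_neg (fun h' => h h'.symm), MM_comm, mul_comm t.2]

theorem sum_idxW (s : ℕ) (c : List ℕ) (r : ℕ × ℕ × ℕ) (F : Ix × ℚ → ℝ) :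
    ((idxW s c r).map F).sum
      = ((pairs s).map (fun b => F (ix r 0 b, om s c r 0 b))).sum
        + ((pairs s).map (fun b => F (ix r 1 b, om s c r 1 b))).sum
        + ((pairs s).map (fun b => F (ix r 2 b, om s c r 2 b))).sum := by
  simp [idxW, List.flatMap_cons, List.map_append, List.sum_append, List.map_map,
    Function.comp_def, add_assoc]

theorem SS_comm (s : ℕ) (c : List ℕ) (r : ℕ × ℕ × ℕ) (v : ℕ → ℕ × ℕ → ℝ) (a a' : ℕ) :
    SS s c r v a' a = SS s c r v a a' := by
  unfold SS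
  rw [list_sum_comm]
  congr 1
  apply List.map_congr_left
  intro b _
  congr 1
  apply List.map_congr_left
  intro b' _
  rw [MM_comm]; ring

/-- the block `(a,a')` of the double sum -/
noncomputable def TT (s : ℕ) (c : List ℕ) (r : ℕ × ℕ × ℕ) (v : ℕ → ℕ × ℕ → ℝ) (a a' : ℕ) : ℝ :=
  ((pairs s).map (fun b => ((pairs s).map (fun b' =>
    (entB c (ZZ s c r) (ix r a b, om s c r a b) (ix r a' b', om s c r a' b') : ℝ)
      * v a b * v a' b')).sum)).sum

theorem TT_same (s : ℕ) (c : List ℕ) (r : ℕ × ℕ × ℕ) (v : ℕ → ℕ × ℕ → ℝ) (a : ℕ) :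
    TT s c r v a a = - (S1 s c r a (v a)) ^ 2 := by
  unfold TT S1
  rw [sq, ← list_sum_prod]
  have := list_sum2_lin (pairs s) (pairs s) (-1)
    (fun b b' => (om s c r a b : ℝ) * v a b * ((om s c r a b' : ℝ) * v a b')) (fun _ _ => 0)
  simp only [List.map_const', List.sum_replicate, smul_zero, add_zero] at this
  rw [neg_eq_neg_one_mul, ← this]
  apply list_sum2_congr
  intro b b'
  simp [entB, ix]
  ring

theorem TT_diff (s : ℕ) (c : List ℕ) (r : ℕ × ℕ × ℕ) (v : ℕ → ℕ × ℕ → ℝ) (a a' : ℕ)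
    (h : a ≠ a') :
    TT s c r v a a' = - ((ZZ s c r : ℝ) * SS s c r v a a')
      + S1 s c r a (v a) * S1 s c r a' (v a') := by
  unfold TT S1 SS
  rw [← list_sum_prod, ← neg_mul, ← list_sum2_lin]
  apply list_sum2_congr
  intro b b'
  simp [entB, ix, h]
  ring

theorem goodL_of_check (s : ℕ) (c : List ℕ) (r : ℕ × ℕ × ℕ) (h : check s c r = true)
    (v : ℕ → ℕ × ℕ → ℝ)
    (h0 : S1 s c r 0 (v 0) = 0) (h1 : S1 s c r 1 (v 1) = 0) (h2 : S1 s c r 2 (v 2) = 0) :
    0 ≤ (ZZ s c r : ℝ) * ((S1 s c r 0 (fun b => v 0 b ^ 2) + S1 s c r 1 (fun b => v 1 b ^ 2)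
        + S1 s c r 2 (fun b => v 2 b ^ 2))
      - 2 * (SS s c r v 0 1 + SS s c r v 0 2 + SS s c r v 1 2)) := by
  set w : Ix × ℚ → ℝ := fun t => v t.1.1 (t.1.2.2.1, t.1.2.2.2) with hw
  have key := psd_sound (idxW s c r).length _ _ (tri_triG _ _ _) h ((idxW s c r).map w) (by simp)
  rw [qf_triG _ _ (entB_comm c (ZZ s c r))] at key
  rw [sum_idxW, sum_idxW] at key
  simp only [sum_idxW] at key
  have hD : ∀ a, ((pairs s).map (fun b => ((ZZ s c r * (ix r a b, om s c r a b).2 : ℚ) : ℝ)
      * w (ix r a b, om s c r a b) ^ 2)).sum = (ZZ s c r : ℝ) * S1 s c r a (fun b => v a b ^ 2) := by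
    intro a
    unfold S1
    rw [← List.sum_map_mul_left]
    congr 1
    apply List.map_congr_left
    intro b _
    simp [hw, ix]
    ring
  simp only [hD] at key
  have hT : ∀ a a', ((pairs s).map (fun b => ((pairs s).map (fun b' =>
      (entB c (ZZ s c r) (ix r a b, om s c r a b) (ix r a' b', om s c r a' b') : ℝ)
        * w (ix r a b, om s c r a b) * w (ix r a' b', om s c r a' b'))).sum)).sum
      = TT s c r v a a' := by
    intro a a'
    rfl
  simp only [List.sum_map_add, hT] at key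
  rw [TT_same, TT_same, TT_same, TT_diff _ _ _ _ 0 1 (by norm_num),
    TT_diff _ _ _ _ 0 2 (by norm_num), TT_diff _ _ _ _ 1 0 (by norm_num),
    TT_diff _ _ _ _ 1 2 (by norm_num), TT_diff _ _ _ _ 2 0 (by norm_num),
    TT_diff _ _ _ _ 2 1 (by norm_num), h0, h1, h2, SS_comm s c r v 0 1, SS_comm s c r v 0 2,
    SS_comm s c r v 1 2] at key
  linarith

end Vale.Agent.Lib.P328
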