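import Vale.Agent.Lib.P335.Avg

/-!
MODULE Mix (P328).  FROZEN STATEMENT: `heat_mixing`.  Abstract L2 contraction for a chain that is a
uniform mixture of conditional expectations (heat bath).

ROUTE (copy the structure of `mixing_bound` in `Vale/Agent/Lib/P335/Mixing.lean`).
Let `m = card A`, `N = card Ω`, `E a = avgK (p a)`, `T h = (∑ a, E a h) / m`.
(1) `∑ z, P y z * h z = T h y` (unfold `avgK`; `Finset.sum_filter`), `P` is symmetric
    (if `p a y = p a x` the two classes coincide), rows of `P` sum to one.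
(2) `∑ x, T h x = ∑ x, h x`  (`avgK_symm` with the constant function `1`, `avgK_of_inv`).
(3) `∑ x, (T h x)^2 ≤ (1/m) ∑ a, ∑ x, (E a h x)^2` (Cauchy-Schwarz `sq_sum_le_card_mul_sum_sq`) and
    `∑ x, (E a h x)^2 = ∑ x, h x * E a h x` (`avgK_symm`, `avgK_idem`), so
    `∑ x, (T h x)^2 ≤ ∑ x, h x^2 - (1/m) ∑ x, h x * ∑ a, (h x - E a h x) ≤ (1 - γ/m) ∑ x, h x^2`
    for mean-zero `h`.
(4) `h_s y = (P^s) x y - 1/N` satisfies `h_{s+1} = T h_s`, `∑ h_s = 0`, `∑ h_0^2 ≤ 1`; induction and
    Cauchy-Schwarz at the end, exactly as in `mixing_bound`.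
-/

namespace Vale.Agent.Lib.P328

open Finset
open Vale.Agent.Lib.P335 (avgK)

section heat

variable {Ω A K : Type} [Fintype Ω] [Fintype A] [DecidableEq K]

/-- the heat-bath averaging operator -/
noncomputable def heatT (p : A → Ω → K) (h : Ω → ℝ) (y : Ω) : ℝ :=
  (∑ a, avgK (p a) h y) / (Fintype.card A : ℝ)

theorem sum_avgK (q : Ω → K) (h : Ω → ℝ) : ∑ x, avgK q h x = ∑ x, h x := by
  have h1 := Vale.Agent.Lib.P335.avgK_symm q (fun _ => (1 : ℝ)) h
  rw [Vale.Agent.Lib.P335.avgK_of_inv q (fun _ => (1 : ℝ)) (fun _ _ _ => rfl)] at h1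
  simpa using h1

theorem sum_heatT [Nonempty A] (p : A → Ω → K) (h : Ω → ℝ) : ∑ x, heatT p h x = ∑ x, h x := by
  have hm : (0 : ℝ) < (Fintype.card A : ℝ) := by exact_mod_cast Fintype.card_pos
  unfold heatT
  rw [← Finset.sum_div, Finset.sum_comm]
  simp only [sum_avgK, Finset.sum_const, Finset.card_univ, nsmul_eq_mul]
  field_simp

theorem sum_sq_avgK (q : Ω → K) (h : Ω → ℝ) : ∑ x, (avgK q h x) ^ 2 = ∑ x, h x * avgK q h x := by
  have h2 := Vale.Agent.Lib.P335.avgK_symm q (avgK q h) h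
  rw [Vale.Agent.Lib.P335.avgK_idem] at h2
  have e1 : ∑ x, (avgK q h x) ^ 2 = ∑ x, avgK q h x * avgK q h x :=
    Finset.sum_congr rfl (fun x _ => by ring)
  have e2 : ∑ x, h x * avgK q h x = ∑ x, avgK q h x * h x :=
    Finset.sum_congr rfl (fun x _ => by ring)
  rw [e1, e2, h2]

theorem heat_contract [Nonempty A] (p : A → Ω → K) (h : Ω → ℝ) :
    ∑ x, (heatT p h x) ^ 2 ≤ ∑ x, h x ^ 2
      - (1 / (Fintype.card A : ℝ)) * ∑ x, h x * ∑ a, (h x - avgK (p a) h x) := by
  have hm : (0 : ℝ) < (Fintype.card A : ℝ) := by exact_mod_cast Fintype.card_pos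
  set m : ℝ := (Fintype.card A : ℝ) with hmdef
  have hpt : ∀ x, (heatT p h x) ^ 2 ≤ (1 / m) * ∑ a, (avgK (p a) h x) ^ 2 := by
    intro x
    have cs : (∑ a, avgK (p a) h x) ^ 2 ≤ m * ∑ a, (avgK (p a) h x) ^ 2 := by
      have := sq_sum_le_card_mul_sum_sq (s := (univ : Finset A)) (f := fun a => avgK (p a) h x)
      simpa [Finset.card_univ, hmdef] using this
    unfold heatT
    rw [← hmdef, div_pow, div_le_iff₀ (by positivity)]
    calc (∑ a, avgK (p a) h x) ^ 2 ≤ m * ∑ a, (avgK (p a) h x) ^ 2 := cs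
      _ = 1 / m * (∑ a, (avgK (p a) h x) ^ 2) * m ^ 2 := by field_simp
  calc ∑ x, (heatT p h x) ^ 2 ≤ ∑ x, (1 / m) * ∑ a, (avgK (p a) h x) ^ 2 :=
        Finset.sum_le_sum (fun x _ => hpt x)
    _ = ∑ x, h x ^ 2 - (1 / m) * ∑ x, h x * ∑ a, (h x - avgK (p a) h x) := by
        have s1 : ∑ x, ∑ a, (avgK (p a) h x) ^ 2 = ∑ x, ∑ a, h x * avgK (p a) h x := by
          rw [Finset.sum_comm]
          simp only [sum_sq_avgK]
          rw [Finset.sum_comm]
        have s2 : ∑ x, h x * ∑ a, (h x - avgK (p a) h x)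
            = m * ∑ x, h x ^ 2 - ∑ x, ∑ a, h x * avgK (p a) h x := by
          rw [Finset.mul_sum, ← Finset.sum_sub_distrib]
          refine Finset.sum_congr rfl (fun x _ => ?_)
          rw [Finset.sum_sub_distrib, ← Finset.mul_sum]
          simp only [Finset.sum_const, Finset.card_univ, nsmul_eq_mul]
          rw [← hmdef]
          ring
        rw [← Finset.mul_sum, s1, s2]
        field_simp
        ring

end heat

theorem heat_mixing {Ω A K : Type} [Fintype Ω] [DecidableEq Ω] [Fintype A] [Nonempty A] [DecidableEq K]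
    (p : A → Ω → K) (γ : ℝ) (hγ0 : 0 ≤ γ) (hγ : γ ≤ (Fintype.card A : ℝ))
    (hP : ∀ f : Ω → ℝ, ∑ x, f x = 0 →
      γ * ∑ x, f x ^ 2 ≤ ∑ x, f x * ∑ a, (f x - avgK (p a) f x))
    (P : Matrix Ω Ω ℝ)
    (hPdef : ∀ x y, P x y = (∑ a, if p a y = p a x then
      1 / ((univ.filter (fun z => p a z = p a x)).card : ℝ) else 0) / (Fintype.card A : ℝ))
    (t : ℕ) (x : Ω) :
    (∑ y, |(P ^ t) x y - 1 / (Fintype.card Ω : ℝ)|) ^ 2
      ≤ (Fintype.card Ω : ℝ) * (1 - γ / (Fintype.card A : ℝ)) ^ t := by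
  have hm : (0 : ℝ) < (Fintype.card A : ℝ) := by exact_mod_cast Fintype.card_pos
  have : Nonempty Ω := ⟨x⟩
  have hN : (0 : ℝ) < (Fintype.card Ω : ℝ) := by exact_mod_cast Fintype.card_pos
  set m : ℝ := (Fintype.card A : ℝ) with hmdef
  set N : ℝ := (Fintype.card Ω : ℝ) with hNdef
  set a : ℝ := 1 - γ / m with hadef
  have ha0 : 0 ≤ a := by
    rw [hadef, sub_nonneg, div_le_one (by positivity)]
    exact hγ
  -- P is symmetric
  have hPsymm : ∀ y z, P y z = P z y := by
    intro y z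
    rw [hPdef, hPdef]
    congr 1
    refine Finset.sum_congr rfl (fun b _ => ?_)
    by_cases hyz : p b z = p b y
    · rw [if_pos hyz, if_pos hyz.symm, hyz]
    · rw [if_neg hyz, if_neg (fun e => hyz e.symm)]
  -- action of P
  have hPact : ∀ (h : Ω → ℝ) (y : Ω), ∑ z, P y z * h z = heatT p h y := by
    intro h y
    unfold heatT
    have e1 : ∀ z, P y z * h z = (∑ b, if p b z = p b y then
        h z / ((univ.filter (fun w => p b w = p b y)).card : ℝ) else 0) / m := by
      intro z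
      rw [hPdef, div_mul_eq_mul_div, Finset.sum_mul]
      congr 1
      refine Finset.sum_congr rfl (fun b _ => ?_)
      split_ifs <;> ring
    simp only [e1]
    rw [← Finset.sum_div, Finset.sum_comm]
    congr 1
    refine Finset.sum_congr rfl (fun b _ => ?_)
    unfold Vale.Agent.Lib.P335.avgK
    rw [← Finset.sum_filter, Finset.sum_div]
  have hProw : ∀ y, ∑ z, P y z = 1 := by
    intro y
    have h1 := hPact (fun _ => 1) y
    unfold heatT at h1
    simp only [mul_one] at h1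
    rw [h1]
    have h2 : ∀ b, avgK (p b) (fun _ => (1 : ℝ)) y = 1 := fun b => by
      rw [Vale.Agent.Lib.P335.avgK_of_inv (p b) (fun _ => (1 : ℝ)) (fun _ _ _ => rfl)]
    simp only [h2, Finset.sum_const, Finset.card_univ, nsmul_eq_mul, mul_one]
    rw [← hmdef]
    field_simp
  -- the deviation vector
  set h : ℕ → Ω → ℝ := fun s y => (P ^ s) x y - 1 / N with hh
  have hrec : ∀ s, h (s + 1) = heatT p (h s) := by
    intro s
    funext y
    rw [← hPact (h s) y]
    simp only [hh]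
    rw [pow_succ, Matrix.mul_apply]
    have e1 : ∑ z, P y z * ((P ^ s) x z - 1 / N)
        = ∑ z, (P ^ s) x z * P z y - (∑ z, P y z) * (1 / N) := by
      rw [Finset.sum_mul, ← Finset.sum_sub_distrib]
      refine Finset.sum_congr rfl (fun z _ => ?_)
      rw [hPsymm z y]; ring
    rw [e1, hProw]
    ring
  have hmean : ∀ s, ∑ y, h s y = 0 := by
    intro s
    induction s with
    | zero =>
      simp only [hh, pow_zero, Matrix.one_apply]
      rw [Finset.sum_sub_distrib, Finset.sum_ite_eq]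
      simp only [Finset.mem_univ, if_true, Finset.sum_const, Finset.card_univ, nsmul_eq_mul]
      rw [← hNdef]
      field_simp
      ring
    | succ s ih => rw [hrec, sum_heatT, ih]
  have hnorm : ∀ s, ∑ y, h s y ^ 2 ≤ a ^ s := by
    intro s
    induction s with
    | zero =>
      simp only [hh, pow_zero, Matrix.one_apply]
      have e1 : ∀ y, ((if x = y then (1 : ℝ) else 0) - 1 / N) ^ 2
          = (if x = y then (1 - 2 / N) else 0) + 1 / N ^ 2 := by
        intro y
        split_ifs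
        · field_simp; ring
        · field_simp; ring
      simp only [e1]
      rw [Finset.sum_add_distrib, Finset.sum_ite_eq]
      simp only [Finset.mem_univ, if_true, Finset.sum_const, Finset.card_univ, nsmul_eq_mul]
      rw [← hNdef]
      have : N * (1 / N ^ 2) = 1 / N := by field_simp
      rw [this]
      have : 0 < 1 / N := by positivity
      have e3 : 2 / N = 2 * (1 / N) := by ring
      rw [e3]
      linarith
    | succ s ih =>
      rw [hrec]
      have c1 := heat_contract p (h s)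
      have c2 := hP (h s) (hmean s)
      have c3 : (1 / m) * (γ * ∑ y, h s y ^ 2)
          ≤ (1 / m) * ∑ y, h s y * ∑ b, (h s y - avgK (p b) (h s) y) :=
        mul_le_mul_of_nonneg_left c2 (by positivity)
      have c4 : ∑ y, (heatT p (h s) y) ^ 2 ≤ a * ∑ y, h s y ^ 2 := by
        have : a * ∑ y, h s y ^ 2 = ∑ y, h s y ^ 2 - (1 / m) * (γ * ∑ y, h s y ^ 2) := by
          rw [hadef]; field_simp
        rw [this]
        linarith
      calc ∑ y, (heatT p (h s) y) ^ 2 ≤ a * ∑ y, h s y ^ 2 := c4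
        _ ≤ a * a ^ s := mul_le_mul_of_nonneg_left ih ha0
        _ = a ^ (s + 1) := by ring
  have cs : (∑ y, |h t y|) ^ 2 ≤ N * ∑ y, |h t y| ^ 2 := by
    have := sq_sum_le_card_mul_sum_sq (s := (univ : Finset Ω)) (f := fun y => |h t y|)
    simpa [Finset.card_univ, hNdef] using this
  calc (∑ y, |(P ^ t) x y - 1 / N|) ^ 2 = (∑ y, |h t y|) ^ 2 := rfl
    _ ≤ N * ∑ y, |h t y| ^ 2 := cs
    _ = N * ∑ y, h t y ^ 2 := by simp only [sq_abs]
    _ ≤ N * a ^ t := mul_le_mul_of_nonneg_left (hnorm t) hN.le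

end Vale.Agent.Lib.P328
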