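import Vale.Agent.Lib.P328.Poincare
import Vale.Agent.Lib.P328.Mix
import Vale.Agent.Lib.P328.Card

/-! Mixing time of the two-row heat bath from the three-row inequality (P328). -/

namespace Vale.Agent.Lib.P328

open Finset Classical
open Vale.Agent.Lib.P335 (avgK)

variable {ι κ : Type} [Fintype ι] [Fintype κ]

theorem mem_pairClass_iff {r : ι → ℕ} {c : κ → ℕ} (i i' : ι) (X Y : Tab r c) :
    Y ∈ pairClass i i' X ↔ key {i, i'} Y = key {i, i'} X := by
  rw [key_eq_iff]
  simp only [pairClass, mem_filter, mem_univ, true_and, Finset.mem_insert, Finset.mem_singleton,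
    not_or]
  exact ⟨fun h k hk => h k hk.1 hk.2, fun h k h1 h2 => h k ⟨h1, h2⟩⟩

theorem pairClass_eq {r : ι → ℕ} {c : κ → ℕ} (i i' : ι) (X : Tab r c) :
    pairClass i i' X = univ.filter (fun Z => key {i, i'} Z = key {i, i'} X) := by
  ext Y
  rw [mem_pairClass_iff]
  simp

theorem mixing_of_threeRow (r : ι → ℕ) (c : κ → ℕ) (h3 : ThreeRow r c)
    (hm : 2 ≤ Fintype.card ι) (B : ℕ) (hB : ∀ i, r i ≤ B) (ε : ℝ) (hε : 0 < ε) (t : ℕ)
    (ht : (Fintype.card ι : ℝ) ^ 2 * ((Fintype.card ι : ℝ) * (Fintype.card κ : ℝ)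
      * Real.log ((B : ℝ) + 1) + Real.log (1 / ε)) ≤ (t : ℝ)) (X : Tab r c) :
    tvDist ((heatBath r c ^ t) X) (fun _ => 1 / (Fintype.card (Tab r c) : ℝ)) ≤ ε := by
  have hne : Nonempty ι := by
    apply Fintype.card_pos_iff.mp; omega
  have hcardA : (Fintype.card (ι × ι) : ℝ) = (Fintype.card ι : ℝ) ^ 2 := by
    rw [Fintype.card_prod]; push_cast; ring
  have hm' : (2 : ℝ) ≤ (Fintype.card ι : ℝ) := by exact_mod_cast hm
  have hb := heat_mixing (Ω := Tab r c) (A := ι × ι) (fun a => key {a.1, a.2}) 2 (by norm_num)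
    (by rw [hcardA]; nlinarith) (tab_poincare r c h3) (heatBath r c)
    (by
      intro x y
      unfold heatBath
      rw [hcardA, Fintype.sum_prod_type]
      congr 1
      refine Finset.sum_congr rfl (fun i _ => Finset.sum_congr rfl (fun i' _ => ?_))
      rw [pairClass_eq]
      simp only [mem_filter, mem_univ, true_and]) t X
  rw [hcardA] at hb
  set m : ℝ := (Fintype.card ι : ℝ) with hmdef
  set N : ℝ := (Fintype.card (Tab r c) : ℝ) with hN
  set S : ℝ := ∑ y, |(heatBath r c ^ t) X y - 1 / N| with hS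
  have hS0 : 0 ≤ S := Finset.sum_nonneg (fun _ _ => abs_nonneg _)
  have hm2 : 0 < m ^ 2 := by positivity
  set Lg : ℝ := m * (Fintype.card κ : ℝ) * Real.log ((B : ℝ) + 1) with hLg
  have hLg0 : 0 ≤ Lg := by
    have : 0 ≤ Real.log ((B : ℝ) + 1) := Real.log_nonneg (by
      have : (0 : ℝ) ≤ (B : ℝ) := Nat.cast_nonneg B
      linarith)
    positivity
  have hNle : N ≤ Real.exp Lg := by
    have h1 : (Fintype.card (Tab r c) : ℝ) ≤ (((B + 1) ^ (Fintype.card ι * Fintype.card κ) : ℕ) : ℝ) := by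
      exact_mod_cast card_tab_le r c B hB
    have h2 : (((B + 1) ^ (Fintype.card ι * Fintype.card κ) : ℕ) : ℝ) = Real.exp Lg := by
      have hpos : (0 : ℝ) < (B : ℝ) + 1 := by positivity
      have e1 : Lg = Real.log ((B : ℝ) + 1) * ((Fintype.card ι * Fintype.card κ : ℕ) : ℝ) := by
        rw [hLg, hmdef]; push_cast; ring
      rw [e1, Real.exp_mul, Real.exp_log hpos, Real.rpow_natCast]
      push_cast
      rfl
    rw [hN]; linarith
  have hq : (1 - 2 / m ^ 2) ^ t ≤ Real.exp (-(2 * (t : ℝ) / m ^ 2)) := by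
    have h0 : 0 ≤ 1 - 2 / m ^ 2 := by
      rw [sub_nonneg, div_le_one hm2]; nlinarith
    have h1 : 1 - 2 / m ^ 2 ≤ Real.exp (-(2 / m ^ 2)) := by
      have := Real.add_one_le_exp (-(2 / m ^ 2))
      linarith
    calc (1 - 2 / m ^ 2) ^ t ≤ (Real.exp (-(2 / m ^ 2))) ^ t := pow_le_pow_left₀ h0 h1 t
      _ = Real.exp (-(2 * (t : ℝ) / m ^ 2)) := by
          rw [← Real.exp_nat_mul]; congr 1; ring
  have ht' : Lg + Real.log (1 / ε) ≤ (t : ℝ) / m ^ 2 := by
    rw [le_div_iff₀ hm2]; linarith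
  have hS2 : S ^ 2 ≤ ε ^ 2 := by
    calc S ^ 2 ≤ N * (1 - 2 / m ^ 2) ^ t := hb
      _ ≤ Real.exp Lg * Real.exp (-(2 * (t : ℝ) / m ^ 2)) := by
          apply mul_le_mul hNle hq _ (Real.exp_pos _).le
          have h0 : 0 ≤ 1 - 2 / m ^ 2 := by
            rw [sub_nonneg, div_le_one hm2]; nlinarith
          positivity
      _ = Real.exp (Lg - 2 * ((t : ℝ) / m ^ 2)) := by
          rw [← Real.exp_add]; congr 1; ring
      _ ≤ Real.exp (2 * Real.log ε) := by
          apply Real.exp_le_exp.mpr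
          have : Real.log (1 / ε) = - Real.log ε := by
            rw [one_div, Real.log_inv]
          rw [this] at ht'
          linarith
      _ = ε ^ 2 := by
          rw [mul_comm, Real.exp_mul, Real.exp_log hε]
          norm_num
  have hSle : S ≤ ε := by
    exact (abs_le_of_sq_le_sq' hS2 hε.le).2
  unfold tvDist
  have : (∑ x, |(heatBath r c ^ t) X x - (fun _ => 1 / N) x|) = S := rfl
  rw [this]
  linarith

end Vale.Agent.Lib.P328
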