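import Vale.Agent.Lib.P328.Defs
import Vale.Agent.Lib.P335.Avg
import Vale.Agent.Lib.P335.Caputo

/-! Averaging operators of the two-row heat bath on integer contingency tables. -/

namespace Vale.Agent.Lib.P328

open Finset
open Vale.Agent.Lib.P335 (avgK avgL IsSymm avgK_of_inv avgK_symm avgK_idem avgL_apply avgL_isSymm
  avgK_congr sum_mul_sub_avgK comm_of_range_invariant)

variable {ι κ : Type} [Fintype ι] [DecidableEq ι] [Fintype κ]
variable {r : ι → ℕ} {c : κ → ℕ}

/-- the table with the rows of `I` erased: `key I X = key I Y` iff `X`, `Y` agree outside `I` -/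
def key (I : Finset ι) (X : Tab r c) : ι → κ → ℕ := fun i => if i ∈ I then 0 else X.1 i

theorem key_eq_iff (I : Finset ι) (X Y : Tab r c) :
    key I X = key I Y ↔ ∀ k, k ∉ I → X.1 k = Y.1 k := by
  constructor
  · intro h k hk
    have := congrFun h k
    simpa [key, hk] using this
  · intro h
    funext k
    by_cases hk : k ∈ I
    · simp [key, hk]
    · simp [key, hk, h k hk]

theorem key_mono {I J : Finset ι} (hIJ : I ⊆ J) {X Y : Tab r c} (h : key I X = key I Y) :
    key J X = key J Y := by
  rw [key_eq_iff] at h ⊢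
  exact fun k hk => h k (fun hk' => hk (hIJ hk'))

/-- a table is determined by all rows but one -/
theorem eq_of_key_singleton {i : ι} {X Y : Tab r c} (h : key {i} X = key {i} Y) : X = Y := by
  rw [key_eq_iff] at h
  apply Subtype.ext
  funext k j
  by_cases hk : k = i
  · subst hk
    have hX := X.2.2 j
    have hY := Y.2.2 j
    rw [← Finset.add_sum_erase _ _ (Finset.mem_univ k)] at hX hY
    have : ∑ x ∈ univ.erase k, X.1 x j = ∑ x ∈ univ.erase k, Y.1 x j := by
      refine Finset.sum_congr rfl (fun x hx => ?_)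
      rw [h x (by simpa using (Finset.mem_erase.mp hx).1)]
    omega
  · rw [h k (by simpa using hk)]

/-- `1 - E_{i,i'}` -/
noncomputable def QQ (r : ι → ℕ) (c : κ → ℕ) (i i' : ι) : (Tab r c → ℝ) →ₗ[ℝ] (Tab r c → ℝ) :=
  LinearMap.id - avgL (key {i, i'})

theorem QQ_apply (i i' : ι) (f : Tab r c → ℝ) (X : Tab r c) :
    QQ r c i i' f X = f X - avgK (key {i, i'}) f X := rfl

theorem QQ_swap (i i' : ι) : QQ r c i i' = QQ r c i' i := by
  unfold QQ; rw [Finset.pair_comm]

theorem QQ_diag (i : ι) : QQ r c i i = 0 := by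
  apply LinearMap.ext
  intro f
  funext X
  rw [QQ_apply, Finset.pair_eq_singleton,
    avgK_of_inv (key {i}) f (fun X Y h => by rw [eq_of_key_singleton h])]
  simp

theorem QQ_isSymm (i i' : ι) : IsSymm (QQ r c i i') := by
  intro f g
  simp only [QQ_apply, mul_sub, sub_mul, Finset.sum_sub_distrib]
  rw [avgK_symm]

theorem QQ_idem (i i' : ι) (f : Tab r c → ℝ) : QQ r c i i' (QQ r c i i' f) = QQ r c i i' f := by
  unfold QQ
  simp only [LinearMap.sub_apply, LinearMap.id_apply, map_sub, avgL_apply, avgK_idem]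
  simp

/-- The three-row inequality for the margins `r`, `c` (hypothesis `h3` of the abstract
local-to-global theorem `caputo`). -/
def ThreeRow (r : ι → ℕ) (c : κ → ℕ) : Prop :=
  ∀ i j k : ι, i ≠ j → i ≠ k → j ≠ k → ∀ f : Tab r c → ℝ,
    0 ≤ ∑ X, (QQ r c i j f X * QQ r c i k f X + QQ r c i j f X * QQ r c j k f X
      + QQ r c i k f X * QQ r c j k f X)

end Vale.Agent.Lib.P328
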