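import Vale.Agent.Lib.P328.Comp

/-!
MODULE PSD (P328).  FROZEN STATEMENT: `psd_sound` (soundness of the elimination test `psd`).

ROUTE.  Auxiliary lemmas (all by induction on lists / on `n`, lengths from `Tri`):
(a) `dotq (zipWith (fun rj u => if rj == 0 then u else u - ri*rj/a) rt urow) v
      = dotq urow v - ri * dotq rt v / a` when `rt.length = urow.length` (`= v.length`);
    the `if` is harmless since `rj = 0` gives `u - ri*0/a = u` (`push_cast`).
(b) for `Tri n U`, `row.length = n`, `v.length = n`, `a ≠ 0`:
      `Tri n (upd a row U)`  and  `qf (upd a row U) v = qf U v - (dotq row v)^2 / a`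
    (the branch `ri == 0` returns `Ui` unchanged, consistent with (a) for `ri = 0`).
(c) `row.all (· == 0) = true → dotq row v = 0`.
Main induction on `n` (generalising `fuel`, `U`, `v`):  `U = (a :: row) :: U'`, `v = x :: v'`,
  `qf U v = a x^2 + 2 x (row·v') + qf U' v'`.
  If `0 < a`:  `= a (x + (row·v')/a)^2 + (qf U' v' - (row·v')^2/a) = a(..)^2 + qf (upd a row U') v' ≥ 0`.
  If `a = 0` and `row = 0`:  `= qf U' v' ≥ 0`.
-/

namespace Vale.Agent.Lib.P328

theorem dotq_zipWith (a ri : ℚ) : ∀ (rt urow : List ℚ) (v : List ℝ), rt.length = urow.length →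
    dotq (List.zipWith (fun rj u => if rj == 0 then u else u - ri * rj / a) rt urow) v
      = dotq urow v - (ri : ℝ) * dotq rt v / a
  | [], [], v, _ => by simp [dotq]
  | [], _ :: _, _, h => by simp at h
  | _ :: _, [], _, h => by simp at h
  | rj :: rt, u :: urow, [], _ => by simp [dotq]
  | rj :: rt, u :: urow, x :: v, h => by
    have h' : rt.length = urow.length := by simpa using h
    simp only [List.zipWith_cons_cons, dotq, dotq_zipWith a ri rt urow v h']
    by_cases hr : rj = 0
    · subst hr; simp; ring
    · have : (rj == 0) = false := by simpa using hr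
      rw [this]
      simp only [Bool.false_eq_true, if_false]
      push_cast
      ring

theorem dotq_all_zero : ∀ (row : List ℚ) (v : List ℝ), row.all (· == 0) = true → dotq row v = 0
  | [], v, _ => by simp [dotq]
  | _ :: _, [], _ => by simp [dotq]
  | a :: row, x :: v, h => by
    simp only [List.all_cons, Bool.and_eq_true, beq_iff_eq] at h
    simp [dotq, h.1, dotq_all_zero row v h.2]

theorem upd_spec (a : ℚ) : ∀ (n : ℕ) (row : List ℚ) (U : List (List ℚ)) (v : List ℝ),
    Tri n U → row.length = n → v.length = n →
    Tri n (upd a row U) ∧ qf (upd a row U) v = qf U v - (dotq row v) ^ 2 / a := by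
  intro n
  induction n with
  | zero =>
    intro row U v hU hrow hv
    have h1 : U = [] := hU
    have h2 : row = [] := List.length_eq_zero_iff.1 hrow
    subst h1 h2
    simp [upd, Tri, qf, dotq]
  | succ n ih =>
    intro row U v hU hrow hv
    obtain ⟨Ui, U', rfl, hUi, hU'⟩ := hU
    obtain ⟨ri, rt, rfl⟩ : ∃ ri rt, row = ri :: rt := by
      cases row with
      | nil => simp at hrow
      | cons ri rt => exact ⟨ri, rt, rfl⟩
    obtain ⟨x, v', rfl⟩ : ∃ x v', v = x :: v' := by
      cases v with
      | nil => simp at hv
      | cons x v' => exact ⟨x, v', rfl⟩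
    obtain ⟨a', row', rfl⟩ : ∃ a' row', Ui = a' :: row' := by
      cases Ui with
      | nil => simp at hUi
      | cons a' row' => exact ⟨a', row', rfl⟩
    have hrt : rt.length = n := by simpa using hrow
    have hv' : v'.length = n := by simpa using hv
    have hrow' : row'.length = n := by simpa using hUi
    obtain ⟨ih1, ih2⟩ := ih rt U' v' hU' hrt hv'
    by_cases hr : ri = 0
    · subst hr
      constructor
      · refine ⟨_, _, rfl, ?_, ih1⟩
        simpa using hUi
      · simp only [upd, beq_self_eq_true, if_true, qf, ih2, dotq]
        push_cast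
        ring
    · have hb : (ri == 0) = false := by simpa using hr
      constructor
      · refine ⟨_, _, rfl, ?_, ih1⟩
        simp [hb, hrt, hrow']
      · simp only [upd, hb, Bool.false_eq_true, if_false, List.zipWith_cons_cons, qf, ih2, dotq,
          dotq_zipWith a ri rt row' v' (hrt.trans hrow'.symm)]
        push_cast
        ring

theorem psd_sound (n fuel : ℕ) (U : List (List ℚ)) (hU : Tri n U) (h : psd fuel U = true)
    (v : List ℝ) (hv : v.length = n) : 0 ≤ qf U v := by
  induction n generalizing fuel U v with
  | zero =>
    have h1 : U = [] := hU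
    subst h1
    simp [qf]
  | succ n ih =>
    obtain ⟨Ui, U', rfl, hUi, hU'⟩ := hU
    obtain ⟨x, v', rfl⟩ : ∃ x v', v = x :: v' := by
      cases v with
      | nil => simp at hv
      | cons x v' => exact ⟨x, v', rfl⟩
    obtain ⟨a, row, rfl⟩ : ∃ a' row', Ui = a' :: row' := by
      cases Ui with
      | nil => simp at hUi
      | cons a' row' => exact ⟨a', row', rfl⟩
    have hv' : v'.length = n := by simpa using hv
    have hrow : row.length = n := by simpa using hUi
    cases fuel with
    | zero => simp [psd] at h
    | succ k =>
      simp only [psd] at h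
      by_cases ha : 0 < a
      · rw [if_pos ha] at h
        obtain ⟨t1, t2⟩ := upd_spec a n row U' v' hU' hrow hv'
        have h3 := ih k _ t1 h v' hv'
        rw [t2] at h3
        have haR : (0 : ℝ) < (a : ℝ) := by exact_mod_cast ha
        simp only [qf]
        have e : (a : ℝ) * x ^ 2 + 2 * x * dotq row v' + qf U' v'
            = (a : ℝ) * (x + dotq row v' / a) ^ 2 + (qf U' v' - dotq row v' ^ 2 / a) := by
          field_simp
          ring
        rw [e]
        have : 0 ≤ (a : ℝ) * (x + dotq row v' / a) ^ 2 := by positivity
        linarith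
      · rw [if_neg ha] at h
        simp only [Bool.and_eq_true, beq_iff_eq] at h
        obtain ⟨⟨h1, h2⟩, h3⟩ := h
        have h4 := ih k _ hU' h3 v' hv'
        simp only [qf, h1, dotq_all_zero row v' h2]
        simpa using h4

end Vale.Agent.Lib.P328
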