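import Vale.Agent.Lib.P328.Defs

/-!
MODULE PairSum (P328).  FROZEN STATEMENT: `pair_sum`.
A three-row table is determined by two of its rows `x, y`; these are arbitrary rows with the right
sums and `x + y ≤ c`.

ROUTE.  Rewrite the right side as a sum over the finset
`P = ((piAntidiag univ (r a)) ×ˢ (piAntidiag univ (r b))).filter (fun xy => xy.1 + xy.2 ≤ c)`
(`Finset.sum_product'`, `Finset.sum_filter`) and use `Finset.sum_bij'`/`Finset.sum_nbij'` with
`Z ↦ (Z a, Z b)`.  Membership: `Finset.mem_piAntidiag`, `Z.2.1`; `Z a t + Z b t ≤ c t` from `Z.2.2 t`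
and `Fin.sum_univ_three` (do `fin_cases a <;> fin_cases b`, 6 live cases, or first prove: there is a
third index `d` with `∀ F : Fin 3 → ℕ, ∑ i, F i = F a + F b + F d`).
Inverse: `(x,y) ↦` the table with row `a` equal to `x`, row `b` equal to `y` and third row `c - x - y`; the third
row has sum `∑ c - r a - r b = r d` by `hsum` (`Finset.sum_tsub_distrib` or work in ℤ / use
`Finset.sum_add_distrib` on `x + y + (c - x - y) = c`).
-/

namespace Vale.Agent.Lib.P328

open Finset

variable {κ : Type} [Fintype κ] [DecidableEq κ]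

theorem exists_third (a b : Fin 3) (hab : a ≠ b) :
    ∃ d : Fin 3, d ≠ a ∧ d ≠ b ∧ (∀ e : Fin 3, e = a ∨ e = b ∨ e = d) ∧
      ∀ F : Fin 3 → ℕ, ∑ i, F i = F a + F b + F d := by
  fin_cases a <;> fin_cases b <;> first
    | exact absurd rfl hab
    | (refine ⟨0, by decide, by decide, by decide, fun F => ?_⟩
       rw [Fin.sum_univ_three]; simp; try omega)
    | (refine ⟨1, by decide, by decide, by decide, fun F => ?_⟩
       rw [Fin.sum_univ_three]; simp; try omega)
    | (refine ⟨2, by decide, by decide, by decide, fun F => ?_⟩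
       rw [Fin.sum_univ_three]; simp; try omega)

theorem pair_sum (r : Fin 3 → ℕ) (c : κ → ℕ) (hsum : ∑ a, r a = ∑ j, c j) (a b : Fin 3)
    (hab : a ≠ b) (G : (κ → ℕ) → (κ → ℕ) → ℝ) :
    ∑ Z : Tab r c, G (Z.1 a) (Z.1 b)
      = ∑ x ∈ piAntidiag (univ : Finset κ) (r a), ∑ y ∈ piAntidiag (univ : Finset κ) (r b),
          if ∀ t, x t + y t ≤ c t then G x y else 0 := by
  classical
  obtain ⟨d, hda, hdb, hcase, hF⟩ := exists_third a b hab
  rw [← Finset.sum_product' (s := piAntidiag (univ : Finset κ) (r a))
    (t := piAntidiag (univ : Finset κ) (r b))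
    (f := fun x y => if ∀ t, x t + y t ≤ c t then G x y else 0)]
  rw [← Finset.sum_filter (s := piAntidiag (univ : Finset κ) (r a) ×ˢ
      piAntidiag (univ : Finset κ) (r b))
    (p := fun xy : (κ → ℕ) × (κ → ℕ) => ∀ t, xy.1 t + xy.2 t ≤ c t)
    (f := fun xy => G xy.1 xy.2)]
  refine Finset.sum_bij (fun Z _ => (Z.1 a, Z.1 b)) ?_ ?_ ?_ ?_
  · intro Z _
    simp only [mem_filter, mem_product, mem_piAntidiag, mem_univ, implies_true, and_true]
    refine ⟨⟨Z.2.1 a, Z.2.1 b⟩, fun t => ?_⟩
    have h := Z.2.2 t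
    rw [hF (fun i => Z.1 i t)] at h
    omega
  · intro Z _ Z' _ h
    have h1 : Z.1 a = Z'.1 a := congrArg Prod.fst h
    have h2 : Z.1 b = Z'.1 b := congrArg Prod.snd h
    apply Subtype.ext
    funext e t
    rcases hcase e with rfl | rfl | rfl
    · rw [h1]
    · rw [h2]
    · have h3 := Z.2.2 t
      have h4 := Z'.2.2 t
      rw [hF (fun i => Z.1 i t)] at h3
      rw [hF (fun i => Z'.1 i t)] at h4
      have h5 := congrFun h1 t
      have h6 := congrFun h2 t
      omega
  · intro xy hxy
    simp only [mem_filter, mem_product, mem_piAntidiag, mem_univ, implies_true, and_true] at hxy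
    obtain ⟨⟨hx, hy⟩, hle⟩ := hxy
    obtain ⟨x, y⟩ := xy
    simp only at hx hy hle
    have hrow : ∑ t, (c t - x t - y t) = r d := by
      have h1 : ∑ t, (x t + y t + (c t - x t - y t)) = ∑ t, c t :=
        Finset.sum_congr rfl fun t _ => by have := hle t; omega
      rw [Finset.sum_add_distrib, Finset.sum_add_distrib, hx, hy, ← hsum, hF r] at h1
      omega
    refine ⟨⟨fun e => if e = a then x else if e = b then y else fun t => c t - x t - y t, ?_, ?_⟩,
      mem_univ _, ?_⟩
    · intro e
      rcases hcase e with rfl | rfl | rfl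
      · simpa using hx
      · simpa [hab.symm] using hy
      · simpa [hda, hdb] using hrow
    · intro t
      rw [hF (fun i => (if i = a then x else if i = b then y else fun t => c t - x t - y t) t)]
      simp only [if_true, hab.symm, if_false, hda, hdb]
      have := hle t
      omega
    · simp [hab.symm]
  · intro Z _
    rfl

end Vale.Agent.Lib.P328
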