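import Vale.Agent.Lib.P328.Comm
import Vale.Agent.Lib.P328.Connect

/-! Local-to-global: the three-row inequality implies the Poincare inequality for the two-row
heat bath on tables with any number of rows (P328). -/

namespace Vale.Agent.Lib.P328

open Finset
open Vale.Agent.Lib.P335 (avgK avgL IsSymm avgK_of_inv avgK_symm avgK_idem avgL_apply avgL_isSymm
  avgK_congr sum_mul_sub_avgK comm_of_range_invariant caputo form_ge_of_sq)

variable {ι κ : Type} [Fintype ι] [DecidableEq ι] [Fintype κ]

theorem tab_poincare (r : ι → ℕ) (c : κ → ℕ) (h3 : ThreeRow r c) (f : Tab r c → ℝ)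
    (hf : ∑ X, f X = 0) :
    2 * ∑ X, f X ^ 2 ≤ ∑ X, f X * ∑ p : ι × ι, (f X - avgK (key {p.1, p.2}) f X) := by
  set A : (Tab r c → ℝ) →ₗ[ℝ] (Tab r c → ℝ) := ∑ i, ∑ j, QQ r c i j with hA
  have hAapp : ∀ g : Tab r c → ℝ, A g = ∑ i, ∑ j, QQ r c i j g := by
    intro g; simp [hA, LinearMap.sum_apply]
  have hAsymm : IsSymm A := by
    intro g h
    simp only [hAapp, Finset.sum_apply, Finset.mul_sum, Finset.sum_mul]
    rw [Finset.sum_comm]
    conv_rhs => rw [Finset.sum_comm]
    refine Finset.sum_congr rfl (fun i _ => ?_)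
    rw [Finset.sum_comm]
    conv_rhs => rw [Finset.sum_comm]
    exact Finset.sum_congr rfl (fun j _ => QQ_isSymm i j g h)
  have hform : ∀ g : Tab r c → ℝ, ∑ X, g X * A g X
      = ∑ i, ∑ j, ∑ X, QQ r c i j g X * QQ r c i j g X := by
    intro g
    simp only [hAapp, Finset.sum_apply, Finset.mul_sum]
    rw [Finset.sum_comm]
    refine Finset.sum_congr rfl (fun i _ => ?_)
    rw [Finset.sum_comm]
    refine Finset.sum_congr rfl (fun j _ => ?_)
    exact sum_mul_sub_avgK (key {i, j}) g
  have hpos : ∀ g : Tab r c → ℝ, 0 ≤ ∑ X, g X * A g X := by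
    intro g; rw [hform]
    exact Finset.sum_nonneg (fun i _ => Finset.sum_nonneg (fun j _ =>
      Finset.sum_nonneg (fun X _ => mul_self_nonneg _)))
  have hcap : ∀ g : Tab r c → ℝ, 2 * ∑ X, g X * A g X ≤ ∑ X, A g X * A g X := by
    intro g
    have := caputo (QQ r c) QQ_swap QQ_diag QQ_isSymm QQ_idem QQ_comm h3 g
    rw [← hAapp] at this
    simpa [sq] using this
  have hker : ∀ h : Tab r c → ℝ, A h = 0 → ∑ X, f X * h X = 0 := by
    intro h hh
    have h0 : ∑ i, ∑ j, ∑ X, QQ r c i j h X * QQ r c i j h X = 0 := by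
      rw [← hform, hh]; simp
    have hQ : ∀ i j X, QQ r c i j h X = 0 := by
      intro i j X
      have h1 := (Finset.sum_eq_zero_iff_of_nonneg (fun i _ => Finset.sum_nonneg (fun j _ =>
        Finset.sum_nonneg (fun X _ => mul_self_nonneg (QQ r c i j h X))))).mp h0 i (mem_univ _)
      have h2 := (Finset.sum_eq_zero_iff_of_nonneg (fun j _ =>
        Finset.sum_nonneg (fun X _ => mul_self_nonneg (QQ r c i j h X)))).mp h1 j (mem_univ _)
      have h3 := (Finset.sum_eq_zero_iff_of_nonneg
        (fun X _ => mul_self_nonneg (QQ r c i j h X))).mp h2 X (mem_univ _)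
      exact mul_self_eq_zero.mp h3
    have hinv : ∀ (i i' : ι) (X Y : Tab r c), key {i, i'} X = key {i, i'} Y → h X = h Y := by
      intro i i' X Y hXY
      have e1 := hQ i i' X
      have e2 := hQ i i' Y
      rw [QQ_apply] at e1 e2
      have e3 : avgK (key {i, i'}) h X = avgK (key {i, i'}) h Y := avgK_congr _ _ hXY
      linarith
    have hconst := const_of_pair_inv h hinv
    by_cases hne : Nonempty (Tab r c)
    · obtain ⟨X0⟩ := hne
      have : ∑ X, f X * h X = (∑ X, f X) * h X0 := by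
        rw [Finset.sum_mul]
        exact Finset.sum_congr rfl (fun X _ => by rw [hconst X X0])
      rw [this, hf]; simp
    · have : IsEmpty (Tab r c) := not_nonempty_iff.mp hne
      simp
  have hgap : 2 * ∑ X, f X * f X ≤ ∑ X, f X * A f X :=
    form_ge_of_sq A hAsymm 2 (by norm_num) hpos hcap f hker
  have e1 : ∑ X, f X ^ 2 = ∑ X, f X * f X := Finset.sum_congr rfl (fun X _ => sq (f X))
  have e2 : ∀ X, A f X = ∑ p : ι × ι, (f X - avgK (key {p.1, p.2}) f X) := by
    intro X
    rw [hAapp, Fintype.sum_prod_type]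
    simp only [Finset.sum_apply, QQ_apply]
  rw [e1]
  calc 2 * ∑ X, f X * f X ≤ ∑ X, f X * A f X := hgap
    _ = _ := Finset.sum_congr rfl (fun X _ => by rw [e2 X])

end Vale.Agent.Lib.P328
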