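import Vale.Agent.Lib.P328.Comp

/-!
MODULE RowParam (P328).  FROZEN STATEMENTS: `rows_param`, `fits_iff`, `mem_comps`.

ROUTES.
* `rows_param`.  First turn the list sum into a Finset sum:
  `((pairs s).map F).sum = ∑ p ∈ range s, ∑ q ∈ range s, F (p,q)` (`List.sum_flatMap`/`List.flatMap`,
  `List.sum_map` over `List.range` = `Finset.sum_range`) `= ∑ p : Fin s, ∑ q : Fin s, F (p,q)`
  (`Fin.sum_univ_eq_sum_range`).  `rowN s rho p q = Pi.single p 1 + (if rho = 2 then Pi.single q 1 else 0)`.
  `rho = 1`: only `q = p` survives; `x ↦ e_p` is a bijection from `Fin s` onto `piAntidiag univ 1`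
  (a function with sum one is a `Pi.single`: `Finset.sum_eq_one_iff`-style argument).
  `rho = 2`: bijection between `{(p,q) | p ≤ q}` and `piAntidiag univ 2`; surjectivity: pick `p` minimal
  with `x p ≠ 0`, then `x - e_p` has sum one; injectivity: from `e_p + e_q = e_p' + e_q'`, `p ≤ q`,
  `p' ≤ q'` evaluate at the four points.  (`Finset.sum_bij`, `Finset.sum_filter`.)
* `fits_iff`: `List.all_eq_true`, `List.mem_zipIdx`-lemmas / `List.zipIdx_ofFn`, or induction-free:
  `List.all` over `zipIdx` ↔ `∀ i (h : i < length), ..` (`List.getElem_zipIdx`, `List.getElem_ofFn`).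
* `mem_comps`: induction on `n = l.sum` generalising `l`.  `l = []` gives `n = 0`.  `l = h :: t`:
  if `h = 1` then `t ∈ comps (n-1)` and `l` is the first element produced from `t`; if `h ≥ 2` then
  `(h-1) :: t ∈ comps (n-1)` and `l` is the second element produced from it (`List.mem_flatMap`).
-/

namespace Vale.Agent.Lib.P328

open Finset

/-- the row over the columns `Fin s` coded by `(rho,p,q)` -/
def rowN (s rho p q : ℕ) : Fin s → ℕ := fun j => cnt rho p q j

theorem list_range_sum (s : ℕ) (f : ℕ → ℝ) :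
    ((List.range s).map f).sum = ∑ p : Fin s, f p := by
  rw [← Finset.sum_range]
  induction s with
  | zero => simp
  | succ n ih => rw [List.range_succ, List.map_append, List.sum_append, ih, Finset.sum_range_succ]; simp

theorem flatMap_sum (L1 L2 : List ℕ) (F : ℕ × ℕ → ℝ) :
    ((L1.flatMap (fun p => L2.map (fun q => (p, q)))).map F).sum
      = (L1.map (fun p => (L2.map (fun q => F (p, q))).sum)).sum := by
  induction L1 with
  | nil => simp
  | cons a L ih =>
    rw [List.flatMap_cons, List.map_append, List.sum_append, ih, List.map_cons, List.sum_cons,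
      List.map_map]
    rfl

theorem pairs_sum (s : ℕ) (F : ℕ × ℕ → ℝ) :
    ((pairs s).map F).sum = ∑ p : Fin s, ∑ q : Fin s, F (p, q) := by
  unfold pairs
  rw [flatMap_sum, list_range_sum]
  refine Finset.sum_congr rfl fun p _ => ?_
  rw [list_range_sum]

theorem sum_ind (s : ℕ) (p : Fin s) : ∑ j : Fin s, (if (p : ℕ) = (j : ℕ) then 1 else 0) = 1 := by
  simp [← Fin.ext_iff]

theorem sum_rowN (s rho : ℕ) (p q : Fin s) :
    ∑ j, rowN s rho p q j = 1 + (if rho = 2 then 1 else 0) := by
  unfold rowN cnt
  rw [Finset.sum_add_distrib, sum_ind]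
  by_cases h : rho = 2
  · simp only [h, true_and, if_true]
    rw [sum_ind]
  · simp [h]

/-- a function with sum one is an indicator -/
theorem eq_ind_of_sum_one (s : ℕ) (x : Fin s → ℕ) (h : ∑ j, x j = 1) :
    ∃ p : Fin s, ∀ j : Fin s, x j = if (p : ℕ) = (j : ℕ) then 1 else 0 := by
  have hex : ∃ p, x p ≠ 0 := by
    by_contra hcon
    have : ∀ p, x p = 0 := fun p => by
      by_contra hp
      exact hcon ⟨p, hp⟩
    simp [this] at h
  obtain ⟨p, hp⟩ := hex
  have h1 := Finset.add_sum_erase univ x (mem_univ p)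
  rw [h] at h1
  have h2 : ∑ j ∈ univ.erase p, x j = 0 := by omega
  have h3 : x p = 1 := by omega
  rw [Finset.sum_eq_zero_iff] at h2
  refine ⟨p, fun j => ?_⟩
  by_cases hj : (p : ℕ) = (j : ℕ)
  · have : p = j := Fin.ext hj
    rw [if_pos hj, ← this, h3]
  · rw [if_neg hj]
    refine h2 j (Finset.mem_erase.2 ⟨fun e => hj (by rw [e]), mem_univ _⟩)

theorem eq_ind_of_sum_two (s : ℕ) (x : Fin s → ℕ) (h : ∑ j, x j = 2) :
    ∃ p q : Fin s, ∀ j : Fin s, x j = (if (p : ℕ) = (j : ℕ) then 1 else 0)
      + (if (q : ℕ) = (j : ℕ) then 1 else 0) := by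
  have hex : ∃ p, x p ≠ 0 := by
    by_contra hcon
    have : ∀ p, x p = 0 := fun p => by
      by_contra hp
      exact hcon ⟨p, hp⟩
    simp [this] at h
  obtain ⟨p, hp⟩ := hex
  set y : Fin s → ℕ := fun j => x j - (if (p : ℕ) = (j : ℕ) then 1 else 0) with hy
  have hxy : ∀ j, x j = (if (p : ℕ) = (j : ℕ) then 1 else 0) + y j := by
    intro j
    simp only [hy]
    by_cases hj : (p : ℕ) = (j : ℕ)
    · have : p = j := Fin.ext hj
      rw [if_pos hj, ← this]
      omega
    · rw [if_neg hj]; omega
  have hsum : ∑ j, y j = 1 := by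
    have : ∑ j, x j = ∑ j : Fin s, ((if (p : ℕ) = (j : ℕ) then 1 else 0) + y j) :=
      Finset.sum_congr rfl fun j _ => hxy j
    rw [Finset.sum_add_distrib, sum_ind, h] at this
    omega
  obtain ⟨q, hq⟩ := eq_ind_of_sum_one s y hsum
  exact ⟨p, q, fun j => by rw [hxy j, hq j]⟩

theorem ind_inj {s : ℕ} (p q p' q' : ℕ) (h1 : p ≤ q) (h2 : p' ≤ q')
    (h : ∀ j, j < s → (if p = j then 1 else 0) + (if q = j then 1 else 0)
      = (if p' = j then 1 else 0) + (if q' = j then 1 else 0))
    (hp : p < s) (hq : q < s) (hp' : p' < s) (hq' : q' < s) : p = p' ∧ q = q' := by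
  constructor
  · rcases lt_trichotomy p p' with hlt | heq | hlt
    · exfalso
      have e := h p hp
      rw [if_pos rfl, if_neg (by omega : ¬ p' = p), if_neg (by omega : ¬ q' = p)] at e
      omega
    · exact heq
    · exfalso
      have e := h p' hp'
      rw [if_neg (by omega : ¬ p = p'), if_neg (by omega : ¬ q = p'), if_pos rfl] at e
      omega
  · rcases lt_trichotomy q q' with hlt | heq | hlt
    · exfalso
      have e := h q' hq'
      rw [if_neg (by omega : ¬ p = q'), if_neg (by omega : ¬ q = q'),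
        if_pos (rfl : q' = q')] at e
      omega
    · exact heq
    · exfalso
      have e := h q hq
      rw [if_pos (rfl : q = q), if_neg (by omega : ¬ p' = q), if_neg (by omega : ¬ q' = q)] at e
      omega

theorem rows_param (s rho : ℕ) (hrho : rho = 1 ∨ rho = 2) (g : (Fin s → ℕ) → ℝ) :
    ∑ x ∈ piAntidiag (univ : Finset (Fin s)) rho, g x
      = ((pairs s).map (fun b => (wt rho b.1 b.2 : ℝ) * g (rowN s rho b.1 b.2))).sum := by
  rw [pairs_sum]
  rcases hrho with rfl | rfl
  · -- rho = 1
    have h1 : ∀ p : Fin s, ∑ q : Fin s, ((wt 1 p q : ℚ) : ℝ) * g (rowN s 1 p q)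
        = g (rowN s 1 p p) := by
      intro p
      rw [Finset.sum_eq_single p]
      · simp [wt]
      · intro q _ hq
        have : ¬ ((p : ℕ) = (q : ℕ)) := fun e => hq (Fin.ext e.symm)
        simp [wt, this]
      · intro h; exact absurd (mem_univ p) h
    rw [Finset.sum_congr rfl fun p _ => h1 p]
    symm
    refine Finset.sum_bij (fun (p : Fin s) _ => rowN s 1 p p) ?_ ?_ ?_ ?_
    · intro p _
      rw [mem_piAntidiag]
      exact ⟨by rw [sum_rowN]; simp, fun _ _ => mem_univ _⟩
    · intro p _ p' _ h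
      have := congrFun h p
      simp only [rowN, cnt] at this
      by_contra hne
      have hne' : ¬ ((p' : ℕ) = (p : ℕ)) := fun e => hne (Fin.ext e.symm)
      simp [hne'] at this
    · intro x hx
      rw [mem_piAntidiag] at hx
      obtain ⟨p, hp⟩ := eq_ind_of_sum_one s x hx.1
      refine ⟨p, mem_univ _, ?_⟩
      funext j
      rw [hp j]
      simp [rowN, cnt]
    · intro p _; rfl
  · -- rho = 2
    have h1 : ∑ p : Fin s, ∑ q : Fin s, ((wt 2 p q : ℚ) : ℝ) * g (rowN s 2 p q)
        = ∑ b ∈ (univ : Finset (Fin s × Fin s)).filter (fun b => b.1 ≤ b.2),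
            g (rowN s 2 b.1 b.2) := by
      rw [Finset.sum_filter, ← Finset.univ_product_univ, Finset.sum_product]
      refine Finset.sum_congr rfl fun p _ => Finset.sum_congr rfl fun q _ => ?_
      by_cases hpq : p ≤ q
      · have : (p : ℕ) ≤ (q : ℕ) := hpq
        simp [wt, hpq, this]
      · have : ¬ (p : ℕ) ≤ (q : ℕ) := hpq
        simp [wt, hpq, this]
    rw [h1]
    symm
    refine Finset.sum_bij (fun (b : Fin s × Fin s) _ => rowN s 2 b.1 b.2) ?_ ?_ ?_ ?_
    · intro b _
      rw [mem_piAntidiag]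
      exact ⟨by rw [sum_rowN]; simp, fun _ _ => mem_univ _⟩
    · rintro ⟨p, q⟩ hb ⟨p', q'⟩ hb' h
      simp only [mem_filter, mem_univ, true_and] at hb hb'
      have hb1 : (p : ℕ) ≤ (q : ℕ) := hb
      have hb2 : (p' : ℕ) ≤ (q' : ℕ) := hb'
      have this := ind_inj p q p' q' hb1 hb2 (fun j hj => by
        have := congrFun h ⟨j, hj⟩
        simpa only [rowN, cnt, true_and] using this) p.2 q.2 p'.2 q'.2
      exact Prod.ext (Fin.ext this.1) (Fin.ext this.2)
    · intro x hx
      rw [mem_piAntidiag] at hx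
      obtain ⟨p, q, hpq⟩ := eq_ind_of_sum_two s x hx.1
      rcases le_total p q with hle | hle
      · refine ⟨(p, q), by simp [hle], ?_⟩
        funext j
        rw [hpq j]
        simp [rowN, cnt]
      · refine ⟨(q, p), by simp [hle], ?_⟩
        funext j
        rw [hpq j]
        simp [rowN, cnt, add_comm]
    · intro b _; rfl

theorem fits_iff (s : ℕ) (c : Fin s → ℕ) (t u : Ix) :
    fits (List.ofFn c) t u = true ↔
      ∀ j : Fin s, rowN s t.2.1 t.2.2.1 t.2.2.2 j + rowN s u.2.1 u.2.2.1 u.2.2.2 j ≤ c j := by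
  unfold fits rowN
  rw [List.all_eq_true]
  constructor
  · intro h j
    have hmem : (c j, (j : ℕ)) ∈ (List.ofFn c).zipIdx := by
      rw [List.mk_mem_zipIdx_iff_getElem?]
      simp
    have := h _ hmem
    simpa using this
  · rintro h ⟨x, i⟩ hmem
    rw [List.mk_mem_zipIdx_iff_getElem?] at hmem
    rw [List.getElem?_ofFn] at hmem
    split_ifs at hmem with hi
    · simp only [Option.some.injEq] at hmem
      have := h ⟨i, hi⟩
      simp only [decide_eq_true_eq]
      rw [← hmem]
      exact this

theorem mem_comps_aux (n : ℕ) : ∀ l : List ℕ, (∀ x ∈ l, 0 < x) → l.sum = n → l ∈ comps n := by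
  induction n with
  | zero =>
    intro l hpos hsum
    cases l with
    | nil => simp [comps]
    | cons h t =>
      have := hpos h (by simp)
      simp only [List.sum_cons] at hsum
      omega
  | succ n ih =>
    intro l hpos hsum
    cases l with
    | nil => simp at hsum
    | cons h t =>
      have hh := hpos h (by simp)
      have ht : ∀ x ∈ t, 0 < x := fun x hx => hpos x (by simp [hx])
      simp only [List.sum_cons] at hsum
      simp only [comps, List.mem_flatMap]
      by_cases h1 : h = 1
      · subst h1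
        exact ⟨t, ih t ht (by omega), by simp⟩
      · refine ⟨(h - 1) :: t, ih _ ?_ ?_, ?_⟩
        · intro x hx
          simp only [List.mem_cons] at hx
          rcases hx with rfl | hx
          · omega
          · exact ht x hx
        · simp only [List.sum_cons]; omega
        · have : h - 1 + 1 = h := by omega
          simp [this]

theorem mem_comps (l : List ℕ) (hpos : ∀ x ∈ l, 0 < x) : l ∈ comps l.sum :=
  mem_comps_aux _ l hpos rfl

end Vale.Agent.Lib.P328
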