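import Vale.Agent.Lib.P328.Canon
import Vale.Agent.Lib.P328.FibreCols
import Vale.Agent.Lib.P328.Cases.C222

/-! The variance inequality `Good3` for all three-row tables with row sums at most `2` (P328). -/

namespace Vale.Agent.Lib.P328

open Finset

/-- all the kernel checks, in the form in which they are used -/
theorem good3_canon (s : ℕ) (r : Fin 3 → ℕ) (c : Fin s → ℕ) (hr : ∀ a, r a = 1 ∨ r a = 2)
    (hsum : ∑ a, r a = ∑ j, c j) (hl : List.ofFn c ∈ comps (r 0 + r 1 + r 2)) :
    Good3 (fun (a : Fin 3) (Z : Tab r c) => Z.1 a) := by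
  have hlen : (List.ofFn c).length = s := List.length_ofFn
  have gen : (∀ l ∈ comps (r 0 + r 1 + r 2), checkf l.length l (r 0, r 1, r 2) = true) →
      Good3 (fun (a : Fin 3) (Z : Tab r c) => Z.1 a) := by
    intro h
    have h1 := h _ hl
    rw [hlen, checkf_eq] at h1
    exact good3_of_check s r c hr hsum h1
  have sym : ∀ rho : ℕ, (rho = 1 ∨ rho = 2) → (∀ a, r a = rho) →
      (∀ l ∈ comps (r 0 + r 1 + r 2), checkSf l.length l rho = true) →
      Good3 (fun (a : Fin 3) (Z : Tab r c) => Z.1 a) := by
    intro rho hrho hrr h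
    have h1 := h _ hl
    rw [hlen, checkSf_eq] at h1
    exact good3_of_checkS s r c rho hrho hrr hsum h1
  have hall : ∀ (P : Fin 3 → Prop), P 0 → P 1 → P 2 → ∀ a, P a := by
    intro P h0 h1 h2 a
    fin_cases a
    · exact h0
    · exact h1
    · exact h2
  rcases hr 0 with h0 | h0 <;> rcases hr 1 with h1 | h1 <;> rcases hr 2 with h2 | h2
  · exact sym 1 (Or.inl rfl) (hall _ h0 h1 h2) (by rw [h0, h1, h2]; exact all111)
  · exact gen (by rw [h0, h1, h2]; exact all112)
  · exact gen (by rw [h0, h1, h2]; exact all121)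
  · exact gen (by rw [h0, h1, h2]; exact all122)
  · exact gen (by rw [h0, h1, h2]; exact all211)
  · exact gen (by rw [h0, h1, h2]; exact all212)
  · exact gen (by rw [h0, h1, h2]; exact all221)
  · exact sym 2 (Or.inr rfl) (hall _ h0 h1 h2) (by rw [h0, h1, h2]; exact all222)

theorem good3_small {κ : Type} [Fintype κ] (r : Fin 3 → ℕ) (c : κ → ℕ) (hr : ∀ a, r a ≤ 2) :
    Good3 (fun (a : Fin 3) (Z : Tab r c) => Z.1 a) := by
  by_cases hz : ∃ a0, r a0 = 0
  · obtain ⟨a0, ha0⟩ := hz
    apply good3_of_const _ a0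
    intro x y
    funext j
    have hx := tab_entry_le_row x a0 j
    have hy := tab_entry_le_row y a0 j
    show x.1 a0 j = y.1 a0 j
    omega
  · push Not at hz
    have hr' : ∀ a, r a = 1 ∨ r a = 2 := fun a => by
      have h1 := hr a
      have h2 := hz a
      omega
    obtain ⟨s, e, E, hpos, hinj⟩ := col_equiv r c
    apply good3_of_equiv E _ (fun (a : Fin 3) (Z : Tab r (fun t => c (e t))) => Z.1 a)
    · intro a x y h
      exact hinj x y a h
    · by_cases hsum : ∑ a, r a = ∑ t, c (e t)
      · apply good3_canon s r _ hr' hsum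
        have hmem := mem_comps (List.ofFn (fun t => c (e t))) (by
          intro x hx
          rw [List.mem_ofFn] at hx
          obtain ⟨t, rfl⟩ := hx
          exact hpos t)
        rw [List.sum_ofFn, ← hsum, Fin.sum_univ_three] at hmem
        exact hmem
      · have : IsEmpty (Tab r (fun t => c (e t))) := ⟨fun Z => hsum (by
          calc ∑ a, r a = ∑ a, ∑ t, Z.1 a t := Finset.sum_congr rfl (fun a _ => (Z.2.1 a).symm)
            _ = ∑ t, ∑ a, Z.1 a t := Finset.sum_comm
            _ = ∑ t, c (e t) := Finset.sum_congr rfl (fun t _ => Z.2.2 t))⟩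
        intro u _ _
        simp

end Vale.Agent.Lib.P328
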