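import Vale.Agent.Lib.P328.PairSum
import Vale.Agent.Lib.P328.RowParam

/-! Sums over three-row tables with row sums in `{1,2}` as list sums over coded rows (P328). -/

namespace Vale.Agent.Lib.P328

open Finset

theorem rs_val (r : Fin 3 → ℕ) (a : Fin 3) : rs (r 0, r 1, r 2) (a : ℕ) = r a := by
  fin_cases a <;> rfl

theorem tab_pair_sum (s : ℕ) (r : Fin 3 → ℕ) (c : Fin s → ℕ) (hr : ∀ a, r a = 1 ∨ r a = 2)
    (hsum : ∑ a, r a = ∑ j, c j) (a a' : Fin 3) (h : a ≠ a')
    (G : (Fin s → ℕ) → (Fin s → ℕ) → ℝ) :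
    ∑ Z : Tab r c, G (Z.1 a) (Z.1 a')
      = ((pairs s).map (fun b => ((pairs s).map (fun b' =>
          (MM (List.ofFn c) (ix (r 0, r 1, r 2) a b) (ix (r 0, r 1, r 2) a' b') : ℝ)
            * G (rowN s (r a) b.1 b.2) (rowN s (r a') b'.1 b'.2))).sum)).sum := by
  rw [pair_sum r c hsum a a' h G, rows_param s (r a) (hr a)]
  congr 1
  apply List.map_congr_left
  intro b _
  rw [rows_param s (r a') (hr a'), ← List.sum_map_mul_left]
  congr 1
  apply List.map_congr_left
  intro b' _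
  have hf := fits_iff s c (ix (r 0, r 1, r 2) a b) (ix (r 0, r 1, r 2) a' b')
  simp only [ix, rs_val] at hf
  unfold MM
  simp only [ix, rs_val]
  by_cases hfit : fits (List.ofFn c) ((a : ℕ), r a, b.1, b.2) ((a' : ℕ), r a', b'.1, b'.2) = true
  · rw [if_pos hfit, if_pos (hf.mp hfit)]
    push_cast
    ring
  · rw [if_neg hfit, if_neg (fun hh => hfit (hf.mpr hh))]
    simp

end Vale.Agent.Lib.P328
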