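import Vale.Agent.Lib.P328.Good
import Vale.Agent.Lib.P328.FibreRows

/-! The three-row inequality of a table with many rows from the variance inequality for genuine
three-row tables (P328). -/

namespace Vale.Agent.Lib.P328

open Finset
open Vale.Agent.Lib.P335 (avgK)

variable {ι κ : Type} [Fintype ι] [DecidableEq ι] [Fintype κ]

theorem threeRow_of_good3 (r : ι → ℕ) (c : κ → ℕ)
    (h : ∀ (r' : Fin 3 → ℕ) (c' : κ → ℕ), (∀ a, ∃ i, r' a = r i) →
      Good3 (fun (a : Fin 3) (Z : Tab r' c') => Z.1 a)) :
    ThreeRow r c := by
  classical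
  intro i j k hij hik hjk f
  have hrel : Good3Rel (F := Tab r c) ![key {i, j}, key {i, k}, key {j, k}] (key {i, j, k}) := by
    apply good3Rel_of_fibres
    intro X0
    obtain ⟨e, he⟩ := fibre_equiv i j k hij hik hjk X0
    refine ⟨Tab (ι := Fin 3) ![r k, r j, r i] (fun t => X0.1 i t + X0.1 j t + X0.1 k t),
      inferInstance, κ → ℕ, fun a Z => Z.1 a, e, ?_, ?_⟩
    · intro a x y hxy
      have hx := x.2
      have hy := y.2
      have hxy0 : key {i, j, k} x.1 = key {i, j, k} y.1 := hx.trans hy.symm
      rw [key_eq_iff] at hxy0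
      obtain ⟨hx0, hx1, hx2⟩ := he x
      obtain ⟨hy0, hy1, hy2⟩ := he y
      fin_cases a
      · show key {i, j} x.1 = key {i, j} y.1
        rw [key_eq_iff]
        intro l hl
        by_cases hlk : l = k
        · subst hlk
          rw [← hx0, ← hy0]; exact hxy
        · apply hxy0
          simp only [Finset.mem_insert, Finset.mem_singleton, not_or] at hl ⊢
          exact ⟨hl.1, hl.2, hlk⟩
      · show key {i, k} x.1 = key {i, k} y.1
        rw [key_eq_iff]
        intro l hl
        by_cases hlk : l = j
        · subst hlk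
          rw [← hx1, ← hy1]; exact hxy
        · apply hxy0
          simp only [Finset.mem_insert, Finset.mem_singleton, not_or] at hl ⊢
          exact ⟨hl.1, hlk, hl.2⟩
      · show key {j, k} x.1 = key {j, k} y.1
        rw [key_eq_iff]
        intro l hl
        by_cases hlk : l = i
        · subst hlk
          rw [← hx2, ← hy2]; exact hxy
        · apply hxy0
          simp only [Finset.mem_insert, Finset.mem_singleton, not_or] at hl ⊢
          exact ⟨hlk, hl.1, hl.2⟩
    · apply h
      intro a
      fin_cases a
      · exact ⟨k, rfl⟩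
      · exact ⟨j, rfl⟩
      · exact ⟨i, rfl⟩
  have hc : ∀ (a : Fin 3) (x y : Tab r c),
      (![key {i, j}, key {i, k}, key {j, k}] : Fin 3 → Tab r c → ι → κ → ℕ) a x
        = (![key {i, j}, key {i, k}, key {j, k}] : Fin 3 → Tab r c → ι → κ → ℕ) a y →
      key {i, j, k} x = key {i, j, k} y := by
    intro a x y hxy
    fin_cases a
    · exact key_mono (I := {i, j}) (by intro l; simp; tauto) hxy
    · exact key_mono (I := {i, k}) (by intro l; simp; tauto) hxy
    · exact key_mono (I := {j, k}) (by intro l; simp; tauto) hxy
  have := h3_of_good3Rel _ _ hc hrel f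
  simp only [QQ_apply]
  exact this

end Vale.Agent.Lib.P328
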